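/-
R287/Defs (row 287, S0432: polynomial-time 2-approximation of Shortest Common Superstring).
Owner: helper58.  All definitions of the algorithm `scs` and of the notions used in its analysis.

Overview.  Strings are the vertices of the *hierarchical graph*: an up-arc `(w.dropLast, w)` appends a
letter (cost 1), a down-arc `(w, w.tail)` deletes the first letter (cost 0).  A closed walk through
`[]` spells (`letters`) a string that contains all its vertices.

Phase 1 (`mainM`) grows a multiset `M` of nonempty strings with `M ≤ infs T` (occurrence counts) for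
EVERY superstring `T`; at the end `M` contains the inputs, `arcs M` is a balanced arc multiset of
cost `≤ |T|`, and no circuit of it has a `Bump`.
Phase 2 (`extra`) adds closed walks of total cost `≤ cost (arcs M)` that connect all circuits to `[]`.
-/
import Mathlib

set_option autoImplicit false

namespace Crest.Agent.R287

open List

abbrev Str := List ℕ
abbrev Arc := Str × Str
abbrev Walk := List Arc

/-! ### Arcs and walks -/

/-- `Wk u l v`: the arc list `l` is a walk from `u` to `v`. -/
def Wk : Str → Walk → Str → Prop
  | u, [], v => u = v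
  | u, a :: l, v => a.1 = u ∧ Wk a.2 l v

def src (K : Walk) : Str := (K.headD ([], [])).1
def tgt (K : Walk) : Str := (K.getLastD ([], [])).2
def IsUp (a : Arc) : Prop := a.2 ≠ [] ∧ a.1 = a.2.dropLast
def IsDn (a : Arc) : Prop := a.1 ≠ [] ∧ a.2 = a.1.tail
def IsArc (a : Arc) : Prop := IsUp a ∨ IsDn a
instance (a : Arc) : Decidable (IsDn a) := by unfold IsDn; infer_instance
def up (a : Arc) : Bool := decide (a.1.length < a.2.length)
def cost (A : List Arc) : ℕ := A.countP up
def letters (A : List Arc) : Str := (A.filter up).map fun a => a.2.getLastD 0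
def verts (K : Walk) : List Str := K.map Prod.fst
def Balanced (A : List Arc) : Prop := (A.map Prod.fst).Perm (A.map Prod.snd)
def Reach (A : List Arc) : Str → Str → Prop := Relation.ReflTransGen fun u v => (u, v) ∈ A

/-- A nonempty closed walk of arcs of the hierarchical graph. -/
structure Cl (K : Walk) : Prop where
  ne : K ≠ []
  wk : Wk (src K) K (src K)
  arc : ∀ a ∈ K, IsArc a

/-- A family of pairwise vertex-disjoint closed walks. -/
structure Fam (𝒦 : List Walk) : Prop where
  cl : ∀ K ∈ 𝒦, Cl K
  disj : 𝒦.Pairwise fun K K' => (verts K).Disjoint (verts K')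

/-! ### Euler circuits of a balanced arc multiset -/

def rots (P : Walk) : List Walk :=
  if tgt P = src P then (List.range P.length).map fun i => P.rotate i else [P]

def merges (L : List Walk) : List (List Walk) :=
  L.flatMap fun P => (L.erase P).flatMap fun Q => (rots P).flatMap fun P' =>
    ((rots Q).filter fun Q' => decide (tgt P' = src Q')).map fun Q' =>
      (P' ++ Q') :: (L.erase P).erase Q

def mergeStep (L : List Walk) : List Walk := (merges L).headD L

def circuits (A : List Arc) : List Walk := mergeStep^[A.length] (A.map fun a => [a])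

/-- The string spelled by the circuit of `A` through `[]`, started at `[]`. -/
def final (A : List Arc) : Str :=
  ((circuits A).find? fun K => decide ([] ∈ verts K)).elim []
    fun K => letters (K.rotate ((verts K).idxOf []))

/-! ### The periodic picture of a closed walk -/

/-- The segment of length `n` of the bi-infinite word `W` that starts at position `x`. -/
def sg (W : ℤ → ℕ) (x : ℤ) (n : ℕ) : Str := (List.range n).map fun i : ℕ => W (x + (i : ℤ))

/-- The period of a closed walk. -/
def per (K : Walk) : ℕ := cost K

/-- The bi-infinite periodic word of a closed walk; `src K` sits at position `0`. -/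
def wd (K : Walk) (i : ℤ) : ℕ :=
  (letters K).getD ((i - ((src K).length : ℤ)) % (per K : ℤ)).toNat 0

/-- A shortest vertex. -/
def low (K : Walk) : Str := ((verts K).argmin fun v => v.length).getD []
def hgt (K : Walk) : ℕ := (low K).length
def High (K : Walk) : Prop := per K < hgt K
instance (K : Walk) : Decidable (High K) := by unfold High; infer_instance

/-- The shortest vertex of `K` that is a segment of `wd K` starting at `x`. -/
def env (K : Walk) (x : ℤ) : Str :=
  (((verts K).filter fun v => decide (v = sg (wd K) x v.length)).argmin fun v => v.length).getD []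
/-- The lower envelope of `K`. -/
def G (K : Walk) (x : ℤ) : ℕ := (env K x).length

/-- Number of down-arcs among the first `t` arcs: the position of the `t`-th vertex. -/
def xs (K : Walk) (t : ℕ) : ℕ := (K.take t).countP fun a => !up a
/-- The head of the `t`-th arc ... -/
def vx (K : Walk) (t : ℕ) : Str := (K.getD t ([], [])).2
/-- ... and its position. -/
def col (K : Walk) (t : ℕ) : ℕ := xs K (t + 1)

/-- A down-arc that enters the region above the envelope of `K` from outside the word of `K`. -/
def Entry (K : Walk) (x : ℤ) (a : Arc) : Prop :=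
  IsDn a ∧ a.2 = sg (wd K) x a.2.length ∧ G K x ≤ a.2.length ∧ a.1.headD 0 ≠ wd K (x - 1)
instance (K : Walk) (x : ℤ) (a : Arc) : Decidable (Entry K x a) := by unfold Entry; infer_instance

def Clean (𝒦 : List Walk) (K : Walk) : Prop :=
  High K ∧ ¬ ∃ x ∈ List.range (per K), ∃ a ∈ 𝒦.flatten, Entry K ((x : ℕ) : ℤ) a
instance (𝒦 : List Walk) (K : Walk) : Decidable (Clean 𝒦 K) := by unfold Clean; infer_instance

/-- `v` lies in the square of side `per K` with lower left corner the envelope point at `x`. -/
def Rect (K : Walk) (x : ℤ) (i : ℕ) (v : Str) : Prop :=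
  v = sg (wd K) (x + (i : ℤ)) v.length ∧ G K x ≤ v.length + i ∧ v.length + i ≤ G K x + per K
instance (K : Walk) (x : ℤ) (i : ℕ) (v : Str) : Decidable (Rect K x i v) := by
  unfold Rect; infer_instance

def Bump (𝒦 : List Walk) (K : Walk) (a : ℤ) : Prop :=
  Clean 𝒦 K ∧ G K a = hgt K ∧ ¬ ∃ i ∈ List.range (per K + 1), ∃ K' ∈ 𝒦, K' ≠ K ∧
    (∃ v ∈ verts K', Rect K a i v) ∧ ¬ (Clean 𝒦 K' ∧ hgt K ≤ hgt K')
instance (𝒦 : List Walk) (K : Walk) (a : ℤ) : Decidable (Bump 𝒦 K a) := by
  unfold Bump; infer_instance

def bumps (𝒦 : List Walk) : List Str :=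
  𝒦.flatMap fun K => ((List.range (per K)).filter fun a : ℕ => decide (Bump 𝒦 K (a : ℤ))).map
    fun a : ℕ => sg (wd K) (a : ℤ) (hgt K - per K)

/-- `w` is the head of an up-arc of the family. -/
def InU (𝒦 : List Walk) (w : Str) : Prop := w ≠ [] ∧ (w.dropLast, w) ∈ 𝒦.flatten
/-- `w` is the tail of a down-arc of the family. -/
def InD (𝒦 : List Walk) (w : Str) : Prop := w ≠ [] ∧ (w, w.tail) ∈ 𝒦.flatten

/-- What the analysis uses of the set `X` of strings that occur in `T` more often than in `M`. -/
structure Exc (𝒦 : List Walk) (T : Str) (X : Str → Prop) : Prop where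
  right : ∀ c w, w ≠ [] → X (c :: w) → X w ∨ InU 𝒦 w
  down : ∀ c w, w ≠ [] → X (w ++ [c]) → X w ∨ InD 𝒦 w
  pre : ∀ w, w ≠ [] → w <+: T → X w ∨ InU 𝒦 w
  back : ∀ w, X w ∨ InU 𝒦 w → w <+: T ∨ ∃ c, X (c :: w)
  bdd : ∀ w, X w → w.length ≤ T.length

/-! ### Phase 1: the multiset of forced occurrences -/

def tl (M : List Str) : List Str := (M.map List.tail).filter fun w => decide (w ≠ [])
def dl (M : List Str) : List Str := (M.map List.dropLast).filter fun w => decide (w ≠ [])

def arcs (M : List Str) : List Arc :=
  ((M.diff (tl M)).map fun w => (w.dropLast, w)) ++ (M.diff (dl M)).map fun w => (w, w.tail)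

structure Circ (M : List Str) : Prop where
  nil : [] ∉ M
  tl : tl M <+~ M
  dl : dl M <+~ M

/-- The nonempty prefixes. -/
def pre (T : Str) : List Str := (List.range T.length).map fun i => T.take (i + 1)
/-- The nonempty suffixes. -/
def suf (T : Str) : List Str := (List.range T.length).map fun i => T.drop i
/-- All nonempty infixes, one copy for each occurrence. -/
def infs (T : Str) : List Str := (suf T).flatMap pre

def viol (S M : List Str) : List Str :=
  (S.filter fun s => decide (s ≠ [] ∧ s ∉ M)) ++ (tl M).diff M ++ (dl M).diff M ++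
    bumps (circuits (arcs M))

def step (S M : List Str) : List Str := (viol S M).head?.elim M fun w => w :: M

def mainM (S : List Str) : List Str := (step S)^[(infs S.flatten).length + 1] []

/-! ### Phase 2: connecting the circuits -/

def downs (s : Str) (k : ℕ) : Walk :=
  ((List.range s.length).take k).map fun i => (s.drop i, s.drop (i + 1))
def ups (s : Str) (j : ℕ) : Walk :=
  ((List.range s.length).drop j).map fun i => (s.take i, s.take (i + 1))
/-- Delete `k` letters from `s`, then extend to `s'` (a walk if `s.drop k <+: s'`). -/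
def hook (s : Str) (k : ℕ) (s' : Str) : Walk := downs s k ++ ups s' (s.length - k)

/-- Visit the points (position, string) one after the other, starting from `P`. -/
def tour (P : ℕ × Str) (pts : List (ℕ × Str)) : Walk :=
  ((P :: pts).zip pts).flatMap fun z => hook z.1.2 (z.2.1 - z.1.1) z.2.2

def tri (u : Str) : Walk := hook [] 0 u ++ hook u u.length []

def loop (K : Walk) (x : ℤ) (i : ℕ) (v : Str) : Walk :=
  hook (env K x) i v ++ hook v (per K - i) (env K x)

/-- The `t`-th arc of `K'` is an entry for `Z` at least one period above the envelope of `Z`. -/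
def FarE (Z K' : Walk) (t : ℕ) (x : ℤ) : Prop :=
  Entry Z x (K'.getD t ([], [])) ∧ G Z x + per Z ≤ (vx K' t).length
instance (Z K' : Walk) (t : ℕ) (x : ℤ) : Decidable (FarE Z K' t x) := by
  unfold FarE; infer_instance

def fars (Z K' : Walk) : List (ℕ × ℕ) :=
  (List.range K'.length).flatMap fun t =>
    ((List.range (per Z)).filter fun x : ℕ => decide (FarE Z K' t (x : ℤ))).map fun x => (t, x)

def leaves (R : List Walk) (K' : Walk) : List Walk :=
  R.filter fun Z => decide (High Z ∧ fars Z K' ≠ [])

/-- The words of `Z` and `Z'` agree up to a shift (finite test, see `same_iff`). -/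
def Same (Z Z' : Walk) : Prop :=
  ∃ d ∈ List.range (per Z'),
    sg (wd Z) 0 (per Z + per Z') = sg (wd Z') ((d : ℕ) : ℤ) (per Z + per Z')
instance (Z Z' : Walk) : Decidable (Same Z Z') := by unfold Same; infer_instance

/-- The highest member of each class of `Same`. -/
def sel (L : List Walk) : List Walk :=
  L.filter fun Z => decide (¬ ∃ Z' ∈ L, Same Z Z' ∧ hgt Z < hgt Z')

/-- The chosen far entry. -/
def ch (K' Z : Walk) : ℕ × ℕ := (fars Z K').headD (0, 0)

def srt (K' : Walk) (L : List Walk) : List Walk :=
  (sel L).insertionSort fun Z Z' => (ch K' Z).1 ≤ (ch K' Z').1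

def pt (K' Z : Walk) : ℕ × Str :=
  (col K' (ch K' Z).1, (vx K' (ch K' Z).1).take (G Z ((ch K' Z).2 : ℤ)))

def comb (K' : Walk) (L : List Walk) : Walk :=
  tour (col K' (ch K' ((srt K' L).headD [])).1, [])
    ((srt K' L).map (pt K') ++
      [(col K' (ch K' ((srt K' L).getLastD [])).1, vx K' (ch K' ((srt K' L).getLastD [])).1),
       (col K' (ch K' ((srt K' L).getLastD [])).1 +
          (vx K' (ch K' ((srt K' L).getLastD [])).1).length, [])])

def candsA (𝒦 R : List Walk) : List (List Walk × Walk) :=
  R.flatMap fun K => (List.range (per K)).flatMap fun x : ℕ =>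
    (List.range (per K + 1)).flatMap fun i =>
      (((𝒦.filter fun K' => decide (K' ∉ R)).flatMap verts).filter
        fun v => decide (Rect K (x : ℤ) i v)).map fun v => ([K], loop K (x : ℤ) i v)

def candsB (R : List Walk) : List (List Walk × Walk) :=
  R.flatMap fun K => (List.range (per K)).flatMap fun x : ℕ => R.flatMap fun K' =>
    (K'.filter fun a => decide (Entry K (x : ℤ) a)).map fun a => ([K, K'], tri a.2)

/-- One round: the circuits that get connected and the closed walk that connects them. -/
def act (𝒦 R : List Walk) : List Walk × Walk :=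
  ((R.filter fun K => decide (¬ High K ∨ leaves R K ≠ [])).argmin per).elim
    ((candsA 𝒦 R ++ candsB R).headD ([], []))
    fun K' => if leaves R K' = [] then ([K'], tri (low K'))
      else (K' :: leaves R K', comb K' (leaves R K'))

/-- State: the circuits not yet connected and the arcs added so far. -/
def cstep (𝒦 : List Walk) (s : List Walk × List Arc) : List Walk × List Arc :=
  (s.1.filter fun K => decide (K ∉ (act 𝒦 s.1).1), s.2 ++ (act 𝒦 s.1).2)

def extra (𝒦 : List Walk) : List Arc := ((cstep 𝒦)^[𝒦.length] (𝒦, [])).2

/-- The algorithm. -/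
def scs (S : List Str) : Str :=
  final ((circuits (arcs (mainM S))).flatten ++ extra (circuits (arcs (mainM S))))

end Crest.Agent.R287
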