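/-
R287/Sg: segments of bi-infinite words; alignment and the Fine–Wilf bound `p + p'`.  (helper58)
-/
import Crest.Agent.R287.Defs

set_option autoImplicit false

namespace Crest.Agent.R287

open List Function

variable {W W' : ℤ → ℕ} {x y x' : ℤ} {n m : ℕ}

@[simp] theorem length_sg (W : ℤ → ℕ) (x : ℤ) (n : ℕ) : (sg W x n).length = n := by simp [sg]
@[simp] theorem sg_zero (W : ℤ → ℕ) (x : ℤ) : sg W x 0 = [] := rfl
@[simp] theorem getElem_sg (W : ℤ → ℕ) (x : ℤ) (n i : ℕ) (h : i < (sg W x n).length) :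
    (sg W x n)[i] = W (x + i) := by simp [sg]

theorem sg_ne_nil (h : 0 < n) : sg W x n ≠ [] := by
  rw [← List.length_pos_iff, length_sg]; exact h

theorem sg_eq_iff : sg W x n = sg W' x' n ↔ ∀ i : ℕ, i < n → W (x + i) = W' (x' + i) := by
  simp [sg]

theorem sg_congr (h : ∀ i : ℤ, W (x + i) = W' (x' + i)) (n : ℕ) : sg W x n = sg W' x' n :=
  sg_eq_iff.2 fun i _ => h i

theorem eq_sg_iff {v : Str} :
    v = sg W x v.length ↔ ∀ i (h : i < v.length), v[i] = W (x + i) := by
  constructor
  · intro h i hi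
    have : v[i] = (sg W x v.length)[i]'(by simpa using hi) := by congr 1
    rw [this, getElem_sg]
  · intro h; exact List.ext_getElem (by simp) fun i h1 _ => by rw [h i h1, getElem_sg]

theorem take_sg (W : ℤ → ℕ) (x : ℤ) (n m : ℕ) : (sg W x n).take m = sg W x (min m n) := by
  simp [sg, ← List.map_take, List.take_range]

theorem take_sg_of_le (h : m ≤ n) : (sg W x n).take m = sg W x m := by
  rw [take_sg, min_eq_left h]

theorem drop_sg (W : ℤ → ℕ) (x : ℤ) (n k : ℕ) : (sg W x n).drop k = sg W (x + k) (n - k) := by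
  refine List.ext_getElem (by simp) fun i h1 h2 => ?_
  simp [add_assoc]

theorem tail_sg (W : ℤ → ℕ) (x : ℤ) (n : ℕ) : (sg W x n).tail = sg W (x + 1) (n - 1) := by
  rw [← List.drop_one, drop_sg]; rfl

theorem dropLast_sg (W : ℤ → ℕ) (x : ℤ) (n : ℕ) : (sg W x n).dropLast = sg W x (n - 1) := by
  rw [List.dropLast_eq_take, take_sg]; simp

theorem sg_succ (W : ℤ → ℕ) (x : ℤ) (n : ℕ) : sg W x (n + 1) = W x :: sg W (x + 1) n := by
  refine List.ext_getElem (by simp) fun i h1 h2 => ?_
  cases i with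
  | zero => simp
  | succ i => simp [add_assoc, add_comm (1 : ℤ)]

/-- `sg_succ` read backwards. -/
theorem cons_sg (W : ℤ → ℕ) (x : ℤ) (n : ℕ) : W (x - 1) :: sg W x n = sg W (x - 1) (n + 1) := by
  rw [sg_succ, sub_add_cancel]

theorem sg_succ' (W : ℤ → ℕ) (x : ℤ) (n : ℕ) : sg W x (n + 1) = sg W x n ++ [W (x + n)] := by
  simp [sg, List.range_succ]

theorem headD_sg (h : 0 < n) : (sg W x n).headD 0 = W x := by
  obtain ⟨n, rfl⟩ := Nat.exists_eq_add_one_of_ne_zero h.ne'
  simp [sg_succ]

theorem sg_prefix (W : ℤ → ℕ) (x : ℤ) (h : m ≤ n) : sg W x m <+: sg W x n := by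
  rw [← take_sg_of_le h]; exact List.take_prefix _ _

/-- Equal segments have equal initial pieces. -/
theorem sg_eq_of_le (h : sg W x n = sg W' x' n) (hm : m ≤ n) : sg W x m = sg W' x' m := by
  rw [← take_sg_of_le hm, h, take_sg_of_le hm]

/-- Equal segments have equal final pieces. -/
theorem sg_eq_drop (h : sg W x n = sg W' x' n) (k : ℕ) :
    sg W (x + k) (n - k) = sg W' (x' + k) (n - k) := by
  rw [← drop_sg, h, drop_sg]

theorem sg_periodic {p : ℤ} (h : Periodic W p) (x : ℤ) (n : ℕ) : sg W (x + p) n = sg W x n :=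
  sg_congr (fun i => by rw [add_right_comm, h]) n

/-- Two `p`-periodic functions that agree on `[0, p)` agree. -/
theorem periodic_ext {f g : ℤ → ℕ} {p : ℕ} (hp : 0 < p) (hf : Periodic f (p : ℤ))
    (hg : Periodic g (p : ℤ)) (h : ∀ i : ℕ, i < p → f i = g i) (i : ℤ) : f i = g i := by
  have hp' : (0 : ℤ) < p := by exact_mod_cast hp
  have h0 := Int.emod_nonneg i hp'.ne'
  have h1 := Int.emod_lt_of_pos i hp'
  have e : i = i % p + (i / p) * p := by rw [Int.emod_add_ediv_mul]
  have e1 := hf.int_mul (i / p) (i % p)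
  have e2 := hg.int_mul (i / p) (i % p)
  simp only [Int.cast_id] at e1 e2
  rw [e, e1, e2]
  have := h (i % p).toNat (by omega)
  rwa [Int.toNat_of_nonneg h0] at this

/-- Two equal segments of length at least a period are aligned. -/
theorem align {p : ℕ} (hp : 0 < p) (hW : Periodic W (p : ℤ)) (hn : p ≤ n)
    (h : sg W x n = sg W y n) (i : ℤ) : W (x + i) = W (y + i) :=
  periodic_ext (f := fun i => W (x + i)) (g := fun i => W (y + i)) hp
    (fun j => by simp only [← add_assoc]; rw [hW]) (fun j => by simp only [← add_assoc]; rw [hW])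
    (fun j hj => sg_eq_iff.1 h j (by omega)) i

/-- Fine–Wilf with the bound `p + p'`. -/
theorem fine_wilf {p p' : ℕ} (hp : 0 < p) (hp' : 0 < p') (hW : Periodic W (p : ℤ))
    (hW' : Periodic W' (p' : ℤ)) (hn : p + p' ≤ n) (h : sg W x n = sg W' x' n) (i : ℤ) :
    W (x + i) = W' (x' + i) := by
  have hper : Periodic (fun i => W' (x' + i)) (p : ℤ) := by
    refine periodic_ext (f := fun i => W' (x' + (i + p))) (g := fun i => W' (x' + i)) hp'
      (fun j => by simp only [← add_assoc]; rw [add_right_comm, hW'])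
      (fun j => by simp only [← add_assoc]; rw [hW']) fun j hj => ?_
    have h1 := sg_eq_iff.1 h (j + p) (by omega)
    have h2 := sg_eq_iff.1 h j (by omega)
    push_cast at h1
    rw [← h1, ← h2, ← add_assoc, hW]
  exact periodic_ext (f := fun i => W (x + i)) (g := fun i => W' (x' + i)) hp
    (fun j => by simp only [← add_assoc]; rw [hW]) hper
    (fun j hj => sg_eq_iff.1 h j (by omega)) i

/-- Every integer is congruent to a member of `range p`. -/
theorem exists_range_rep {p : ℕ} (hp : 0 < p) (x : ℤ) :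
    ∃ r : ℕ, r < p ∧ ∃ k : ℤ, x = r + k * p := by
  have hp' : (0 : ℤ) < p := by exact_mod_cast hp
  have h0 := Int.emod_nonneg x hp'.ne'
  have h1 := Int.emod_lt_of_pos x hp'
  refine ⟨(x % p).toNat, by omega, x / p, ?_⟩
  rw [Int.toNat_of_nonneg h0, Int.emod_add_ediv_mul]

end Crest.Agent.R287
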