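/-
R287/Walk: basic facts on arcs, walks, reachability and families of closed walks.  (helper58)
-/
import Crest.Agent.R287.Defs

set_option autoImplicit false

namespace Crest.Agent.R287

open List

@[simp] theorem Wk_nil {u v : Str} : Wk u [] v ↔ u = v := Iff.rfl
@[simp] theorem Wk_cons {u v : Str} {a : Arc} {l : Walk} :
    Wk u (a :: l) v ↔ a.1 = u ∧ Wk a.2 l v := Iff.rfl

theorem Wk_append_iff {u w : Str} {l l' : Walk} :
    Wk u (l ++ l') w ↔ ∃ v, Wk u l v ∧ Wk v l' w := by
  induction l generalizing u with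
  | nil => simp
  | cons a l ih => simp [ih, and_assoc]

theorem Wk.append {u v w : Str} {l l' : Walk} (h : Wk u l v) (h' : Wk v l' w) :
    Wk u (l ++ l') w := Wk_append_iff.2 ⟨v, h, h'⟩

@[simp] theorem src_cons (a : Arc) (l : Walk) : src (a :: l) = a.1 := rfl
@[simp] theorem tgt_concat (a : Arc) (l : Walk) : tgt (l ++ [a]) = a.2 := by simp [tgt]

theorem Wk.src_eq {u v : Str} {l : Walk} (h : Wk u l v) (hl : l ≠ []) : src l = u := by
  cases l with
  | nil => exact absurd rfl hl
  | cons a l => exact h.1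

theorem Wk.tgt_eq {u v : Str} {l : Walk} (h : Wk u l v) (hl : l ≠ []) : tgt l = v := by
  obtain ⟨l', a, rfl⟩ : ∃ l' a, l = l' ++ [a] :=
    ⟨_, _, (List.dropLast_append_getLast hl).symm⟩
  obtain ⟨w, -, h2⟩ := Wk_append_iff.1 h
  simpa using h2.2

theorem Wk.map_eq {u v : Str} {l : Walk} (h : Wk u l v) :
    u :: l.map Prod.snd = l.map Prod.fst ++ [v] := by
  induction l generalizing u with
  | nil => simpa using h
  | cons a l ih => simp [h.1, ← ih h.2]

theorem Wk.perm {u v : Str} {l : Walk} (h : Wk u l v) :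
    (v :: l.map Prod.fst).Perm (u :: l.map Prod.snd) := by
  rw [h.map_eq]; exact (List.perm_append_singleton _ _).symm

theorem Wk.balanced {u : Str} {l : Walk} (h : Wk u l u) : Balanced l := h.perm.cons_inv

theorem Balanced.append {A B : List Arc} (h : Balanced A) (h' : Balanced B) :
    Balanced (A ++ B) := by
  unfold Balanced at *; simpa using h.append h'

theorem Balanced.of_perm {A B : List Arc} (h : Balanced A) (e : A.Perm B) : Balanced B :=
  ((e.map _).symm.trans h).trans (e.map _)

theorem balanced_nil : Balanced [] := List.Perm.refl _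

theorem Reach.refl (A : List Arc) (u : Str) : Reach A u u := Relation.ReflTransGen.refl
theorem Reach.trans {A : List Arc} {u v w : Str} (h : Reach A u v) (h' : Reach A v w) :
    Reach A u w := Relation.ReflTransGen.trans h h'
theorem Reach.arc {A : List Arc} {a : Arc} (h : a ∈ A) : Reach A a.1 a.2 :=
  Relation.ReflTransGen.single h
theorem Reach.mono {A B : List Arc} {u v : Str} (h : Reach A u v) (hAB : A ⊆ B) : Reach B u v := by
  induction h with
  | refl => exact Reach.refl _ _
  | tail _ hx ih => exact Relation.ReflTransGen.tail ih (hAB hx)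

theorem Wk.reach {u v : Str} {l : Walk} (h : Wk u l v) : Reach l u v := by
  induction l generalizing u with
  | nil => exact (show u = v from h) ▸ Reach.refl _ _
  | cons a l ih =>
    rw [← h.1]
    exact (Reach.arc (List.mem_cons_self ..)).trans ((ih h.2).mono (List.subset_cons_self _ _))

/-- Every arc of a walk splits it. -/
theorem Wk.split {u v : Str} {l : Walk} (h : Wk u l v) {a : Arc} (ha : a ∈ l) :
    ∃ l₁ l₂, l = l₁ ++ a :: l₂ ∧ Wk u l₁ a.1 ∧ Wk a.2 l₂ v := by
  obtain ⟨l₁, l₂, rfl⟩ := List.append_of_mem ha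
  obtain ⟨w, h1, h2⟩ := Wk_append_iff.1 h
  exact ⟨l₁, l₂, rfl, h2.1 ▸ h1, h2.2⟩

theorem Wk.reach_fst {u v : Str} {l : Walk} (h : Wk u l v) {a : Arc} (ha : a ∈ l) :
    Reach l u a.1 := by
  obtain ⟨l₁, l₂, rfl, h1, -⟩ := h.split ha
  exact h1.reach.mono (by simp)

theorem Wk.reach_snd {u v : Str} {l : Walk} (h : Wk u l v) {a : Arc} (ha : a ∈ l) :
    Reach l u a.2 := (h.reach_fst ha).trans (Reach.arc ha)

theorem Wk.fst_reach {u v : Str} {l : Walk} (h : Wk u l v) {a : Arc} (ha : a ∈ l) :
    Reach l a.1 v := by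
  obtain ⟨l₁, l₂, rfl, -, h2⟩ := h.split ha
  exact (Reach.arc ha).trans (h2.reach.mono fun x hx => by simp [hx])

theorem IsUp.length {a : Arc} (h : IsUp a) : a.2.length = a.1.length + 1 := by
  have := List.length_pos_iff.2 h.1
  rw [h.2, List.length_dropLast]; omega

theorem IsDn.length {a : Arc} (h : IsDn a) : a.1.length = a.2.length + 1 := by
  have := List.length_pos_iff.2 h.1
  rw [h.2, List.length_tail]; omega

theorem IsUp.up {a : Arc} (h : IsUp a) : up a = true := by simp [R287.up, h.length]
theorem IsDn.up {a : Arc} (h : IsDn a) : up a = false := by simp [R287.up, h.length]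
theorem IsUp.not_isDn {a : Arc} (h : IsUp a) : ¬ IsDn a := fun h' => by
  have := h.length; have := h'.length; omega

theorem IsUp.eq_concat {a : Arc} (h : IsUp a) : a.2 = a.1 ++ [a.2.getLastD 0] := by
  obtain ⟨h1, h2⟩ := h
  rw [h2, List.getLastD_eq_getLast?, List.getLast?_eq_some_getLast h1]
  simp [List.dropLast_append_getLast]

theorem IsDn.eq_cons {a : Arc} (h : IsDn a) : a.1 = a.1.headD 0 :: a.2 := by
  obtain ⟨h1, h2⟩ := h
  rw [h2]; cases h : a.1 <;> simp_all

theorem IsUp.eq_mk {a : Arc} (h : IsUp a) : a = (a.2.dropLast, a.2) := Prod.ext h.2 rfl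
theorem IsDn.eq_mk {a : Arc} (h : IsDn a) : a = (a.1, a.1.tail) := Prod.ext rfl h.2

@[simp] theorem cost_nil : cost [] = 0 := rfl
@[simp] theorem cost_append (A B : List Arc) : cost (A ++ B) = cost A + cost B := by simp [cost]
theorem cost_cons (a : Arc) (A : List Arc) : cost (a :: A) = cost A + if up a then 1 else 0 := by
  simp [cost, List.countP_cons]
theorem cost_perm {A B : List Arc} (h : A.Perm B) : cost A = cost B := h.countP_eq _
theorem cost_le_length (A : List Arc) : cost A ≤ A.length := List.countP_le_length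
theorem cost_flatten (𝒦 : List Walk) : cost 𝒦.flatten = (𝒦.map per).sum := by
  induction 𝒦 with
  | nil => rfl
  | cons K 𝒦 ih => simp [ih, per]

@[simp] theorem letters_nil : letters [] = [] := rfl
@[simp] theorem letters_append (A B : List Arc) : letters (A ++ B) = letters A ++ letters B := by
  simp [letters]
theorem letters_cons_up {a : Arc} (h : up a = true) (A : List Arc) :
    letters (a :: A) = a.2.getLastD 0 :: letters A := by simp [letters, h]
theorem letters_cons_dn {a : Arc} (h : up a = false) (A : List Arc) :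
    letters (a :: A) = letters A := by simp [letters, h]
@[simp] theorem length_letters (A : List Arc) : (letters A).length = cost A := by
  simp [letters, cost, List.countP_eq_length_filter]

/-- The end of a walk is what remains of `u ++ letters` after deleting one letter per down-arc. -/
theorem Wk.end_eq {u v : Str} {l : Walk} (h : Wk u l v) (ha : ∀ a ∈ l, IsArc a) :
    v = (u ++ letters l).drop (l.countP fun a => !up a) ∧
      (l.countP fun a => !up a) + v.length = u.length + cost l := by
  induction l generalizing u with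
  | nil => simp [show u = v from h]
  | cons a l ih =>
    obtain ⟨h1, h2⟩ := h
    obtain ⟨e1, e2⟩ := ih h2 fun b hb => ha b (List.mem_cons_of_mem _ hb)
    subst h1
    rcases ha a (List.mem_cons_self ..) with hu | hd
    · have := hu.length
      refine ⟨?_, ?_⟩
      · rw [letters_cons_up hu.up, List.countP_cons]
        simp only [hu.up, Bool.not_true, Bool.false_eq_true, ↓reduceIte, add_zero]
        rw [e1]; congr 1
        conv_lhs => rw [hu.eq_concat]
        simp
      · simp only [List.countP_cons, cost_cons, hu.up]; simp; omega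
    · have := hd.length
      refine ⟨?_, ?_⟩
      · rw [letters_cons_dn hd.up, List.countP_cons]
        simp only [hd.up, Bool.not_false, ↓reduceIte]
        rw [e1]
        conv_rhs => rw [hd.eq_cons]
        simp
      · simp only [List.countP_cons, cost_cons, hd.up]; simp; omega

theorem Wk.end_suffix {u v : Str} {l : Walk} (h : Wk u l v) (ha : ∀ a ∈ l, IsArc a) :
    v <:+ u ++ letters l := by
  rw [(h.end_eq ha).1]; exact List.drop_suffix _ _

theorem Wk.fst_infix {u v : Str} {l : Walk} (h : Wk u l v) (ha : ∀ a ∈ l, IsArc a) {a : Arc}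
    (hal : a ∈ l) : a.1 <:+: u ++ letters l := by
  obtain ⟨l₁, l₂, rfl, h1, -⟩ := h.split hal
  have := h1.end_suffix fun b hb => ha b (by simp [hb])
  refine this.isInfix.trans (List.IsPrefix.isInfix ?_)
  rw [letters_append, ← List.append_assoc]; exact List.prefix_append _ _

theorem mem_verts {K : Walk} {v : Str} : v ∈ verts K ↔ ∃ a ∈ K, a.1 = v := by simp [verts]
theorem fst_mem_verts {K : Walk} {a : Arc} (h : a ∈ K) : a.1 ∈ verts K := mem_verts.2 ⟨a, h, rfl⟩

theorem Cl.balanced {K : Walk} (h : Cl K) : Balanced K := h.wk.balanced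

theorem Cl.snd_mem {K : Walk} (h : Cl K) {a : Arc} (ha : a ∈ K) : a.2 ∈ verts K :=
  h.balanced.symm.subset (List.mem_map_of_mem ha)

theorem Cl.exists_in {K : Walk} (h : Cl K) {v : Str} (hv : v ∈ verts K) : ∃ a ∈ K, a.2 = v := by
  simpa using h.balanced.subset hv

theorem Cl.src_mem {K : Walk} (h : Cl K) : src K ∈ verts K := by
  obtain ⟨a, l, rfl⟩ := List.exists_cons_of_ne_nil h.ne
  simp [verts]

theorem Cl.verts_ne {K : Walk} (h : Cl K) : verts K ≠ [] := List.ne_nil_of_mem h.src_mem

theorem Cl.reach {K : Walk} (h : Cl K) {u v : Str} (hu : u ∈ verts K) (hv : v ∈ verts K) :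
    Reach K u v := by
  obtain ⟨a, ha, rfl⟩ := mem_verts.1 hu
  obtain ⟨b, hb, rfl⟩ := mem_verts.1 hv
  exact (h.wk.fst_reach ha).trans (h.wk.reach_fst hb)

theorem Fam.nodup {𝒦 : List Walk} (h : Fam 𝒦) : 𝒦.Nodup := by
  have := h.disj.imp_of_mem (S := fun K K' => K ≠ K') fun {K K'} hK _ hd e => by
    subst e; exact hd (h.cl K hK).src_mem (h.cl K hK).src_mem
  exact this

theorem Fam.eq_of_mem {𝒦 : List Walk} (h : Fam 𝒦) {K K' : Walk} (hK : K ∈ 𝒦) (hK' : K' ∈ 𝒦)
    {v : Str} (hv : v ∈ verts K) (hv' : v ∈ verts K') : K = K' := by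
  by_contra hne
  have : Std.Symm fun K K' : Walk => (verts K).Disjoint (verts K') := ⟨fun _ _ h => h.symm⟩
  exact h.disj.forall hK hK' hne hv hv'

theorem Fam.arc {𝒦 : List Walk} (h : Fam 𝒦) {a : Arc} (ha : a ∈ 𝒦.flatten) : IsArc a := by
  obtain ⟨K, hK, haK⟩ := List.mem_flatten.1 ha
  exact (h.cl K hK).arc a haK

theorem Fam.balanced {𝒦 : List Walk} (h : Fam 𝒦) : Balanced 𝒦.flatten := by
  have : ∀ L : List Walk, (∀ K ∈ L, Cl K) → Balanced L.flatten := by
    intro L hL
    induction L with
    | nil => exact balanced_nil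
    | cons K L ih =>
      exact (hL K (by simp)).balanced.append (ih fun K' h' => hL K' (by simp [h']))
  exact this _ h.cl

/-- An arc of the family whose tail is a vertex of `K` belongs to `K`. -/
theorem Fam.mem_of_fst {𝒦 : List Walk} (h : Fam 𝒦) {K : Walk} (hK : K ∈ 𝒦) {a : Arc}
    (ha : a ∈ 𝒦.flatten) (hv : a.1 ∈ verts K) : a ∈ K := by
  obtain ⟨K', hK', haK⟩ := List.mem_flatten.1 ha
  exact h.eq_of_mem hK' hK (fst_mem_verts haK) hv ▸ haK

/-- An arc of the family whose head is a vertex of `K` belongs to `K`. -/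
theorem Fam.mem_of_snd {𝒦 : List Walk} (h : Fam 𝒦) {K : Walk} (hK : K ∈ 𝒦) {a : Arc}
    (ha : a ∈ 𝒦.flatten) (hv : a.2 ∈ verts K) : a ∈ K := by
  obtain ⟨K', hK', haK⟩ := List.mem_flatten.1 ha
  exact h.eq_of_mem hK' hK ((h.cl K' hK').snd_mem haK) hv ▸ haK

theorem low_mem {K : Walk} (h : Cl K) : low K ∈ verts K := by
  unfold low
  cases e : (verts K).argmin fun v => v.length with
  | none => exact absurd (List.argmin_eq_none.1 e) h.verts_ne
  | some m => exact List.argmin_mem e

theorem hgt_le {K : Walk} {v : Str} (hv : v ∈ verts K) : hgt K ≤ v.length := by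
  unfold hgt low
  cases e : (verts K).argmin fun v => v.length with
  | none => simp
  | some m => exact List.le_of_mem_argmin (f := fun v : Str => v.length) hv e

end Crest.Agent.R287
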