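/-
R287/Pic: the vertices of a closed walk `K` are segments of the periodic word `wd K`.
TASK (about 200 lines).
-/
import Crest.Agent.R287.Walk
import Crest.Agent.R287.Sg

set_option autoImplicit false

namespace Crest.Agent.R287

open List Function

variable {K : Walk}

/-- `(i + p - s) % p = (i - s) % p`. -/
theorem wd_periodic (K : Walk) : Periodic (wd K) (per K : ℤ) := by
  intro i
  unfold wd
  rw [show i + (per K : ℤ) - ((src K).length : ℤ) = i - ((src K).length : ℤ) + per K by ring,
    Int.add_emod_right]

/-- `Wk.end_eq` for the closed walk: as many down-arcs as up-arcs. -/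
theorem Cl.xs_length (h : Cl K) : xs K K.length = per K := by
  have := (h.wk.end_eq h.arc).2
  unfold xs per
  rw [List.take_length]
  omega

/-- `#up = #down` and `#up + #down = |K| > 0`. -/
theorem Cl.per_pos (h : Cl K) : 0 < per K := by
  have h1 := h.xs_length
  have h2 := List.length_eq_countP_add_countP (p := up) (l := K)
  have h3 := List.length_pos_iff.2 h.ne
  unfold xs per cost at *
  rw [List.take_length] at h1
  simp only [Bool.not_eq_true, Bool.decide_eq_false] at h2
  omega

/-- Key fact.  With `u = src K`, `p = per K`: `Wk.end_eq` gives `u = (u ++ letters K).drop p`, so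
the string `Y = u ++ letters K` (length `|u| + p`) satisfies `Y[i + p] = Y[i]` for `i < |u|`; and
`Y[|u| + j] = wd K (|u| + j)` for `j < p` by definition of `wd`.  Downward induction on `i` with
`wd_periodic`. -/
theorem Cl.src_append_letters (h : Cl K) :
    src K ++ letters K = sg (wd K) 0 ((src K).length + per K) := by
  have hp := h.per_pos
  have h1 := (h.wk.end_eq h.arc).1
  have h2 := h.xs_length
  unfold xs at h2
  rw [List.take_length] at h2
  rw [h2] at h1
  have hlen : (src K ++ letters K).length = (src K).length + per K := by simp [per]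
  have key : ∀ d i, i + d = (src K).length + per K → ∀ hi : i < (src K ++ letters K).length,
      (src K ++ letters K)[i] = wd K i := by
    intro d
    induction d using Nat.strong_induction_on with
    | _ d ih =>
      intro i hd hi
      rcases lt_or_ge i (src K).length with hlt | hge
      · have e1 : (src K ++ letters K)[i] = (src K)[i] := List.getElem_append_left hlt
        have e2 : (src K)[i] = (src K ++ letters K)[i + per K]'(by omega) := by
          have : (src K)[i] = ((src K ++ letters K).drop (per K))[i]'(h1 ▸ hlt) := by congr 1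
          rw [this, List.getElem_drop]
          congr 1
          omega
        rw [e1, e2, ih (d - per K) (by omega) (i + per K) (by omega)]
        push_cast
        exact wd_periodic K i
      · rw [List.getElem_append_right hge]
        unfold wd
        have e : ((i : ℤ) - ((src K).length : ℤ)) % (per K : ℤ) = ((i - (src K).length : ℕ) : ℤ) := by
          rw [Int.emod_eq_of_lt (by omega) (by omega)]
          omega
        rw [e, Int.toNat_natCast, List.getD_eq_getElem]
  rw [← hlen]
  refine eq_sg_iff.2 fun i hi => ?_
  rw [zero_add]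
  exact key ((src K).length + per K - i) i (by omega) hi

theorem cost_take_le (K : Walk) (s : ℕ) : cost (K.take s) ≤ per K :=
  (List.take_sublist s K).countP_le

theorem cost_take_mono (K : Walk) {s t : ℕ} (hst : s ≤ t) : cost (K.take s) ≤ cost (K.take t) :=
  (List.take_sublist_take_left hst).countP_le

theorem xs_mono (K : Walk) {s t : ℕ} (hst : s ≤ t) : xs K s ≤ xs K t :=
  (List.take_sublist_take_left hst).countP_le

/-- the end point of an initial piece of a closed walk -/
theorem Cl.take_end (h : Cl K) {s : ℕ} {v : Str} (hv : Wk (src K) (K.take s) v) :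
    v = sg (wd K) (xs K s : ℤ) v.length ∧
      xs K s + v.length = (src K).length + cost (K.take s) := by
  obtain ⟨h1, h2⟩ := hv.end_eq fun a ha => h.arc a (List.mem_of_mem_take ha)
  refine ⟨?_, h2⟩
  have h3 : src K ++ letters (K.take s) = sg (wd K) 0 ((src K).length + cost (K.take s)) := by
    rw [← take_sg_of_le (Nat.add_le_add_left (cost_take_le K s) (src K).length),
      ← h.src_append_letters]
    have e : letters K = letters (K.take s) ++ letters (K.drop s) := by
      rw [← letters_append, List.take_append_drop]
    rw [e, ← List.append_assoc, List.take_left' (by simp)]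
  rw [h3, drop_sg, zero_add, ← h2, Nat.add_sub_cancel_left] at h1
  exact h1

theorem Cl.wk_take (h : Cl K) {t : ℕ} (ht : t < K.length) :
    Wk (src K) (K.take t) (K[t]).1 ∧ Wk (src K) (K.take (t + 1)) (vx K t) := by
  have h1 := h.wk
  conv at h1 => enter [2]; rw [← List.take_append_drop t K, List.drop_eq_getElem_cons ht]
  obtain ⟨w, h2, h3, -⟩ := Wk_append_iff.1 h1
  rw [← h3] at h2
  refine ⟨h2, ?_⟩
  rw [List.take_add_one, List.getElem?_eq_getElem ht, vx, List.getD_eq_getElem _ _ ht]
  exact h2.append ⟨rfl, rfl⟩

/-- Split `K = take t ++ drop t`; the walk `take t` ends at `K[t].1`; apply `Wk.end_eq` to it: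
`K[t].1` is `(u ++ letters (take t)).drop (xs K t)`, and `u ++ letters (take t)` is a prefix of
`u ++ letters K` (`take_sg`, `drop_sg`). -/
theorem Cl.fst_eq (h : Cl K) {t : ℕ} (ht : t < K.length) :
    (K[t]).1 = sg (wd K) (xs K t : ℤ) (K[t]).1.length := by
  exact (h.take_end (h.wk_take ht).1).1

/-- Same with `take (t + 1)`, which ends at `vx K t`. -/
theorem Cl.vx_eq (h : Cl K) {t : ℕ} (ht : t < K.length) :
    vx K t = sg (wd K) (col K t : ℤ) (vx K t).length := by
  exact (h.take_end (h.wk_take ht).2).1

/-- Second part of `Wk.end_eq` for `take (t + 1)`. -/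
theorem Cl.col_add (h : Cl K) {t : ℕ} (ht : t < K.length) :
    col K t + (vx K t).length = (src K).length + cost (K.take (t + 1)) := by
  exact (h.take_end (h.wk_take ht).2).2

theorem Cl.vx_mem (h : Cl K) {t : ℕ} (ht : t < K.length) : vx K t ∈ verts K := by
  rw [vx, List.getD_eq_getElem _ _ ht]
  exact h.snd_mem (List.getElem_mem ht)

theorem col_mono (K : Walk) {s t : ℕ} (hst : s ≤ t) : col K s ≤ col K t := by
  exact xs_mono K (Nat.succ_le_succ hst)

theorem Cl.col_le_per (h : Cl K) (t : ℕ) : col K t ≤ per K := by
  rw [← h.xs_length]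
  unfold col xs
  rw [List.take_length]
  exact (List.take_sublist _ K).countP_le

theorem Cl.end_mono (h : Cl K) {s t : ℕ} (hst : s ≤ t) (ht : t < K.length) :
    col K s + (vx K s).length ≤ col K t + (vx K t).length := by
  rw [h.col_add ht, h.col_add (hst.trans_lt ht)]
  exact Nat.add_le_add_left (cost_take_mono K (Nat.succ_le_succ hst)) _

theorem Cl.end_le (h : Cl K) {s t : ℕ} (hs : s < K.length) (ht : t < K.length) :
    col K t + (vx K t).length ≤ col K s + (vx K s).length + per K := by
  rw [h.col_add ht, h.col_add hs]
  have := cost_take_le K (t + 1)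
  omega

theorem Cl.vert_sg (h : Cl K) {v : Str} (hv : v ∈ verts K) :
    ∃ x : ℤ, v = sg (wd K) x v.length := by
  obtain ⟨a, ha, rfl⟩ := mem_verts.1 hv
  obtain ⟨t, ht, rfl⟩ := List.getElem_of_mem ha
  exact ⟨_, h.fst_eq ht⟩

/-- `xs K 0 = 0`, `xs K (t + 1) ≤ xs K t + 1`, `xs K |K| = per K`: every `r < per K` is `xs K t` for
some `t < |K|` (take the largest `t` with `xs K t ≤ r`, or induct); then `exists_range_rep`,
`Cl.fst_eq` and periodicity (`(wd_periodic K).int_mul`, `sg_periodic`). -/
theorem Cl.col_exists (h : Cl K) (x : ℤ) : ∃ v ∈ verts K, v = sg (wd K) x v.length := by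
  obtain ⟨r, hr, k, rfl⟩ := exists_range_rep h.per_pos x
  have hstep : ∀ t, xs K (t + 1) ≤ xs K t + 1 := fun t => by
    unfold xs
    rw [List.take_add_one, List.countP_append]
    exact Nat.add_le_add_left (List.countP_le_length.trans (Option.length_toList_le)) _
  have hex : ∀ n, r < xs K n → ∃ t < n, xs K t = r := by
    intro n
    induction n with
    | zero => simp [xs]
    | succ n ih =>
      intro hn
      rcases lt_or_ge r (xs K n) with h1 | h1
      · obtain ⟨t, ht, e⟩ := ih h1
        exact ⟨t, by omega, e⟩
      · have := hstep n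
        exact ⟨n, by omega, by omega⟩
  obtain ⟨t, ht, e⟩ := hex K.length (by rw [h.xs_length]; exact hr)
  refine ⟨(K[t]).1, fst_mem_verts (List.getElem_mem ht), ?_⟩
  have hk := (wd_periodic K).int_mul k
  simp only [Int.cast_id] at hk
  rw [sg_periodic hk, ← e]
  exact h.fst_eq ht

end Crest.Agent.R287
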