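/-
R287/Env: the lower envelope `G K` of a closed walk, entries, `Clean`, `Same`.
TASK (about 300 lines).  Notation in the recipes: `W = wd K`, `p = per K`, `G = G K`.
-/
import Crest.Agent.R287.Pic

set_option autoImplicit false

namespace Crest.Agent.R287

open List Function

variable {𝒦 : List Walk} {K K' Z Z' : Walk} {x y : ℤ} {n : ℕ} {a : Arc}

theorem Cl.env_spec (h : Cl K) (x : ℤ) :
    env K x ∈ verts K ∧ env K x = sg (wd K) x (env K x).length := by
  unfold env
  cases e : (((verts K).filter fun v => decide (v = sg (wd K) x v.length)).argmin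
      fun v => v.length) with
  | none =>
    obtain ⟨v, hv, hv'⟩ := h.col_exists x
    have hm : v ∈ (verts K).filter fun v => decide (v = sg (wd K) x v.length) :=
      List.mem_filter.2 ⟨hv, decide_eq_true hv'⟩
    rw [List.argmin_eq_none.1 e] at hm
    simp at hm
  | some m =>
    have := List.mem_filter.1 (List.argmin_mem e)
    exact ⟨this.1, of_decide_eq_true this.2⟩

/-- The filtered list in `env` is nonempty (`Cl.col_exists`); `List.argmin_mem` (cf. `low_mem`). -/
theorem Cl.env_mem (h : Cl K) (x : ℤ) : env K x ∈ verts K := by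
  exact (h.env_spec x).1

theorem Cl.env_eq (h : Cl K) (x : ℤ) : env K x = sg (wd K) x (G K x) := by
  exact (h.env_spec x).2

theorem Cl.sg_G_mem (h : Cl K) (x : ℤ) : sg (wd K) x (G K x) ∈ verts K :=
  h.env_eq x ▸ h.env_mem x

/-- `List.le_of_mem_argmin` (cf. `hgt_le`). -/
theorem G_le (hv : sg (wd K) x n ∈ verts K) : G K x ≤ n := by
  have hm : sg (wd K) x n ∈ (verts K).filter fun v => decide (v = sg (wd K) x v.length) :=
    List.mem_filter.2 ⟨hv, by simp⟩
  unfold G env
  cases e : (((verts K).filter fun v => decide (v = sg (wd K) x v.length)).argmin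
      fun v => v.length) with
  | none => simp
  | some m => simpa using List.le_of_mem_argmin (f := fun v : Str => v.length) hm e

/-- The filter predicates agree (`sg_congr`). -/
theorem G_congr (h : ∀ i : ℤ, wd K (x + i) = wd K (y + i)) : G K x = G K y := by
  have : (fun v : Str => decide (v = sg (wd K) x v.length)) =
      fun v => decide (v = sg (wd K) y v.length) := by
    funext v; rw [sg_congr h]
  unfold G env
  rw [this]

theorem G_periodic (K : Walk) : Periodic (G K) (per K : ℤ) := by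
  exact fun x => G_congr fun i => by rw [add_right_comm, wd_periodic]

theorem Cl.hgt_le_G (h : Cl K) (x : ℤ) : hgt K ≤ G K x := by
  exact hgt_le (h.env_mem x)

/-- `low K` is a segment at some `x` (`Cl.vert_sg`); reduce `x` with `exists_range_rep`. -/
theorem Cl.exists_G_eq_hgt (h : Cl K) : ∃ a : ℕ, a < per K ∧ G K (a : ℤ) = hgt K := by
  obtain ⟨x, hx⟩ := h.vert_sg (low_mem h)
  obtain ⟨r, hr, k, rfl⟩ := exists_range_rep h.per_pos x
  refine ⟨r, hr, le_antisymm ?_ (h.hgt_le_G _)⟩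
  have e := (G_periodic K).int_mul k r
  simp only [Int.cast_id] at e
  rw [← e]
  have hm := low_mem h
  rw [hx] at hm
  exact G_le hm

theorem env_not_up (x : ℤ) {b : Arc} (hb : b ∈ K) (hu : IsUp b) :
    b.2 ≠ sg (wd K) x (G K x) := by
  intro e
  have h1 := fst_mem_verts hb
  have h2 := hu.length
  rw [hu.2, e, dropLast_sg] at h1
  have h3 := G_le h1
  rw [e, length_sg] at h2
  omega

/-- E0: the envelope vertex is not the head of an up-arc (its tail `sg W x (G x - 1)` would be a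
shorter vertex of `K`; `Fam.mem_of_snd`, `dropLast_sg`, `G_le`). -/
theorem E0 (hF : Fam 𝒦) (hK : K ∈ 𝒦) (x : ℤ) : ¬ InU 𝒦 (sg (wd K) x (G K x)) := by
  rintro ⟨h1, h2⟩
  have hc := hF.cl K hK
  exact env_not_up x (hF.mem_of_snd hK h2 (hc.sg_G_mem x)) ⟨h1, rfl⟩ rfl

/-- E1: `v = sg W x (G x)` has an incoming arc `b ∈ K` (`Cl.exists_in`), not an up-arc (as in E0).
So `b.1 = sg W z |b.1|` (`Cl.vert_sg`), `v = b.1.tail = sg W (z + 1) (G x)`, and `align`
(`p < hgt ≤ G x`) gives `W z = W (x - 1)`; `IsDn.eq_cons`, `cons_sg`. -/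
theorem E1 (h : Cl K) (hH : High K) (x : ℤ) :
    (sg (wd K) (x - 1) (G K x + 1), sg (wd K) x (G K x)) ∈ K := by
  obtain ⟨b, hb, e⟩ := h.exists_in (h.sg_G_mem x)
  rcases h.arc b hb with hu | hd
  · exact absurd e (env_not_up x hb hu)
  · obtain ⟨z, hz⟩ := h.vert_sg (fst_mem_verts hb)
    have hl := hd.length
    rw [e, length_sg] at hl
    rw [hl] at hz
    have e2 : sg (wd K) (z + 1) (G K x) = sg (wd K) x (G K x) := by
      rw [← e, hd.2, hz, tail_sg, Nat.add_sub_cancel]
    have hp : per K ≤ G K x := le_trans (le_of_lt hH) (h.hgt_le_G x)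
    have e3 := align h.per_pos (wd_periodic K) hp e2
    have e4 : b.1 = sg (wd K) (x - 1) (G K x + 1) := by
      rw [hz]
      refine sg_congr (fun i => ?_) _
      have := e3 (i - 1)
      rw [show z + 1 + (i - 1) = z + i by ring, show x + (i - 1) = x - 1 + i by ring] at this
      exact this
    rw [← e4, ← e]
    exact hb

theorem G_pred_le (h : Cl K) (hH : High K) (x : ℤ) : G K (x - 1) ≤ G K x + 1 :=
  G_le (fst_mem_verts (E1 h hH x))

theorem G_le_succ (h : Cl K) (hH : High K) (x : ℤ) : G K x ≤ G K (x + 1) + 1 := by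
  simpa using G_pred_le h hH (x + 1)

/-- Induction on `y - x` with `G_le_succ`. -/
theorem G_mono (h : Cl K) (hH : High K) (hxy : x ≤ y) : x + G K x ≤ y + G K y := by
  induction y, hxy using Int.leInduction with
  | base => exact le_rfl
  | succ y _ ih =>
    have := G_le_succ h hH y
    omega

/-- E2: induction on `n`.  The vertex `sg W x n` (`G x ≤ n ≤ G (x + 1)`) has an outgoing arc `b ∈ K`;
a down-arc would give the vertex `sg W (x + 1) (n - 1)`, against `G_le`; so `b` is an up-arc,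
`b.2 = sg W z (n + 1)` with `sg W z n = sg W x n`, and `align` gives `b.2 = sg W x (n + 1)`. -/
theorem E2 (h : Cl K) (hH : High K) (h1 : G K x ≤ n) (h2 : n ≤ G K (x + 1) + 1) :
    sg (wd K) x n ∈ verts K := by
  induction n, h1 using Nat.le_induction with
  | base => exact h.sg_G_mem x
  | succ n hn ih =>
    obtain ⟨b, hb, e⟩ := mem_verts.1 (ih (by omega))
    have hp : per K < n := lt_of_lt_of_le hH ((h.hgt_le_G x).trans hn)
    have hs := h.snd_mem hb
    rcases h.arc b hb with hu | hd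
    · obtain ⟨z, hz⟩ := h.vert_sg hs
      have hl := hu.length
      rw [e, length_sg] at hl
      rw [hl] at hz
      have e2 : sg (wd K) z n = sg (wd K) x n := by
        rw [← e, hu.2, hz, dropLast_sg, Nat.add_sub_cancel]
      rw [hz, sg_congr (align h.per_pos (wd_periodic K) hp.le e2)] at hs
      exact hs
    · rw [hd.2, e, tail_sg] at hs
      have := G_le hs
      omega

theorem wd_shift (K : Walk) (x k i : ℤ) : wd K (x + k * per K + i) = wd K (x + i) := by
  have := (wd_periodic K).int_mul k (x + i)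
  simp only [Int.cast_id] at this
  rw [add_right_comm, this]

theorem stack_nocommon (hF : Fam 𝒦) (hZ : Z ∈ 𝒦) (hZ' : Z' ∈ 𝒦) (hne : Z ≠ Z') {d : ℤ}
    (hd : ∀ i, wd Z i = wd Z' (i + d)) (h1 : sg (wd Z) x n ∈ verts Z)
    (h2 : sg (wd Z') (x + d) n ∈ verts Z') : False := by
  have e : sg (wd Z) x n = sg (wd Z') (x + d) n :=
    sg_congr (fun i => by rw [hd, add_right_comm]) n
  exact hne (hF.eq_of_mem hZ hZ' h1 (e ▸ h2))

theorem stack_ne (hF : Fam 𝒦) (hZ : Z ∈ 𝒦) (hZ' : Z' ∈ 𝒦) (hne : Z ≠ Z') {d : ℤ}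
    (hd : ∀ i, wd Z i = wd Z' (i + d)) (x : ℤ) : G Z x ≠ G Z' (x + d) := fun e =>
  stack_nocommon hF hZ hZ' hne hd ((hF.cl Z hZ).sg_G_mem x) (e ▸ (hF.cl Z' hZ').sg_G_mem (x + d))

theorem stack_aux (hF : Fam 𝒦) (hZ : Z ∈ 𝒦) (hZ' : Z' ∈ 𝒦) (hne : Z ≠ Z') (hH : High Z)
    (hH' : High Z') {d : ℤ} (hd : ∀ i, wd Z i = wd Z' (i + d)) {x₀ : ℤ}
    (h0 : G Z x₀ < G Z' (x₀ + d)) : hgt Z < hgt Z' ∧ ∀ x, G Z x < G Z' (x + d) := by
  have hc := hF.cl Z hZ
  have hc' := hF.cl Z' hZ'
  have h1 : ∀ x, x₀ ≤ x → G Z x < G Z' (x + d) := by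
    intro x hx
    induction x, hx using Int.leInduction with
    | base => exact h0
    | succ x _ ih =>
      by_contra hlt
      have h2 := stack_ne hF hZ hZ' hne hd (x + 1)
      have h3 := G_le_succ hc' hH' (x + d)
      rw [add_right_comm x d 1] at h3
      exact stack_nocommon hF hZ hZ' hne hd (E2 hc hH (n := G Z' (x + d)) ih.le (by omega))
        (hc'.sg_G_mem (x + d))
  have h2 : ∀ x, G Z x < G Z' (x + d) := by
    intro x
    have hp : (1 : ℤ) ≤ per Z := by exact_mod_cast hc.per_pos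
    have h3 := h1 (x + |x₀ - x| * per Z)
      (by nlinarith [le_abs_self (x₀ - x), abs_nonneg (x₀ - x)])
    have e1 : G Z (x + |x₀ - x| * per Z) = G Z x := G_congr fun i => wd_shift Z x _ i
    have e2 : G Z' (x + |x₀ - x| * per Z + d) = G Z' (x + d) := G_congr fun i => by
      rw [add_right_comm _ d, add_right_comm _ d, ← hd, ← hd, wd_shift]
    rwa [e1, e2] at h3
  refine ⟨?_, h2⟩
  obtain ⟨a, -, ha⟩ := hc'.exists_G_eq_hgt
  have h3 := h2 (a - d)
  have h4 := hc.hgt_le_G (a - d)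
  rw [sub_add_cancel, ha] at h3
  omega

/-- Stack lemma.  `G Z x ≠ G Z' (x + d)` (common vertex, `Fam.eq_of_mem`).  If
`G Z x < G Z' (x + d)` then also at `x + 1`: otherwise
`G Z x < G Z' (x + d) ≤ G Z' (x + 1 + d) + 1 ≤ G Z (x + 1)`, and E2 for `Z` gives a common vertex.
So the sign is constant on `[0, ∞)`, and both sides are `per Z`-periodic in `x` (`G_congr`).
The comparison of `hgt` follows with `Cl.exists_G_eq_hgt`, `Cl.hgt_le_G`.  The second case is the
first with the roles exchanged (`d ↦ -d`). -/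
theorem stack (hF : Fam 𝒦) (hZ : Z ∈ 𝒦) (hZ' : Z' ∈ 𝒦) (hne : Z ≠ Z') (hH : High Z)
    (hH' : High Z') {d : ℤ} (hd : ∀ i, wd Z i = wd Z' (i + d)) :
    (hgt Z < hgt Z' ∧ ∀ x, G Z x < G Z' (x + d)) ∨
      (hgt Z' < hgt Z ∧ ∀ x, G Z' (x + d) < G Z x) := by
  rcases lt_or_gt_of_ne (stack_ne hF hZ hZ' hne hd 0) with h0 | h0
  · exact Or.inl (stack_aux hF hZ hZ' hne hH hH' hd h0)
  · have hd' : ∀ i, wd Z' i = wd Z (i + -d) := fun i => by rw [hd, neg_add_cancel_right]
    have := stack_aux hF hZ' hZ hne.symm hH' hH hd' (x₀ := 0 + d)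
      (by rw [add_neg_cancel_right]; exact h0)
    refine Or.inr ⟨this.1, fun x => ?_⟩
    have h1 := this.2 (x + d)
    rwa [add_neg_cancel_right] at h1

theorem entry_periodic (K : Walk) (x k : ℤ) (a : Arc) :
    Entry K (x + k * per K) a ↔ Entry K x a := by
  have e1 : sg (wd K) (x + k * per K) a.2.length = sg (wd K) x a.2.length :=
    sg_congr (wd_shift K x k) _
  have e2 : G K (x + k * per K) = G K x := G_congr (wd_shift K x k)
  have e3 : wd K (x + k * per K - 1) = wd K (x - 1) := wd_shift K x k (-1)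
  unfold Entry
  rw [e1, e2, e3]

/-- `exists_range_rep` and `entry_periodic`. -/
theorem clean_iff (h : Cl K) :
    Clean 𝒦 K ↔ High K ∧ ∀ x : ℤ, ∀ a ∈ 𝒦.flatten, ¬ Entry K x a := by
  unfold Clean
  refine and_congr_right fun _ => ⟨fun hn x a ha he => hn ?_, ?_⟩
  · obtain ⟨r, hr, k, rfl⟩ := exists_range_rep h.per_pos x
    exact ⟨r, List.mem_range.2 hr, a, ha, (entry_periodic K r k a).1 he⟩
  · rintro hn ⟨x, -, a, ha, he⟩
    exact hn x a ha he

theorem dn_sg (h' : Cl K') (ha : a ∈ K') (hd : IsDn a) :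
    ∃ z : ℤ, a.2 = sg (wd K') (z + 1) a.2.length ∧ a.1.headD 0 = wd K' z := by
  obtain ⟨z, hz⟩ := h'.vert_sg (fst_mem_verts ha)
  have hl := hd.length
  rw [hl] at hz
  refine ⟨z, ?_, ?_⟩
  · conv_lhs => rw [hd.2, hz, tail_sg, Nat.add_sub_cancel]
  · rw [hz, headD_sg (Nat.succ_pos _)]

/-- `a.1 = sg W' z |a.1|`, so `a.2 = sg W' (z + 1) |a.2|` and `a.1.headD 0 = W' z`; `fine_wilf` at
`i = -1` contradicts the last clause of `Entry`. -/
theorem entry_lt (h : Cl K) (h' : Cl K') (ha : a ∈ K') (he : Entry K x a) :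
    a.2.length < per K + per K' := by
  by_contra hlt
  obtain ⟨z, e1, e2⟩ := dn_sg h' ha he.1
  have := fine_wilf h.per_pos h'.per_pos (wd_periodic K) (wd_periodic K') (not_lt.1 hlt)
    (he.2.1.symm.trans e1) (-1)
  rw [add_neg_cancel_right] at this
  exact he.2.2.2 (e2.trans this.symm)

/-- As `entry_lt`, with `align` (`p < hgt ≤ G x ≤ |a.2|`). -/
theorem entry_not_mem (h : Cl K) (hH : High K) (he : Entry K x a) : a ∉ K := by
  intro ha
  obtain ⟨z, e1, e2⟩ := dn_sg h ha he.1
  have hp : per K ≤ a.2.length := (le_of_lt hH).trans ((h.hgt_le_G x).trans he.2.2.1)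
  have := align h.per_pos (wd_periodic K) hp (he.2.1.symm.trans e1) (-1)
  rw [add_neg_cancel_right] at this
  exact he.2.2.2 (e2.trans this.symm)

/-- `fine_wilf`; conversely reduce `d` modulo `per Z'` (`exists_range_rep`). -/
theorem same_iff (h : Cl Z) (h' : Cl Z') :
    Same Z Z' ↔ ∃ d : ℤ, ∀ i, wd Z i = wd Z' (i + d) := by
  constructor
  · rintro ⟨d, -, e⟩
    refine ⟨d, fun i => ?_⟩
    have := fine_wilf h.per_pos h'.per_pos (wd_periodic Z) (wd_periodic Z') le_rfl e i
    rwa [zero_add, add_comm] at this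
  · rintro ⟨d, hd⟩
    obtain ⟨r, hr, k, rfl⟩ := exists_range_rep h'.per_pos d
    refine ⟨r, List.mem_range.2 hr, sg_congr (fun i => ?_) _⟩
    rw [zero_add, hd, add_comm, wd_shift]

end Crest.Agent.R287
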