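/-
R287/Bump: if a circuit has a `Bump`, the bump string has a spare occurrence in `T`.  (helper58)
-/
import Crest.Agent.R287.Env

set_option autoImplicit false

namespace Crest.Agent.R287

open List Function

variable {𝒦 : List Walk} {K K' : Walk} {T : Str} {X : Str → Prop}

theorem G_pos (h : Cl K) (hH : High K) (x : ℤ) : 0 < G K x := by
  have := h.hgt_le_G x; unfold High at hH; omega

theorem per_lt_G (h : Cl K) (hH : High K) (x : ℤ) : per K < G K x :=
  lt_of_lt_of_le hH (h.hgt_le_G x)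

/-- A down-arc of the family into the region above the envelope of a clean `K` follows `wd K`. -/
theorem Clean.head_eq (h : Cl K) (hc : Clean 𝒦 K) {c : ℕ} {x : ℤ} {n : ℕ} (hn : G K x ≤ n)
    (ha : (c :: sg (wd K) x n, sg (wd K) x n) ∈ 𝒦.flatten) : c = wd K (x - 1) := by
  by_contra hne
  refine ((clean_iff h).1 hc).2 x _ ha ⟨⟨by simp, by simp⟩, by simp, by simpa using hn, ?_⟩
  simpa using hne

/-- A clean circuit has an envelope point with a spare occurrence. -/
theorem exists_exc_env (hF : Fam 𝒦) (hX : Exc 𝒦 T X) (hK : K ∈ 𝒦) (hc : Clean 𝒦 K) :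
    ∃ x : ℤ, X (sg (wd K) x (G K x)) := by
  have h := hF.cl K hK
  have hH := hc.1
  by_contra hno
  push Not at hno
  have hpre : ∀ x n, G K x ≤ n → ¬ sg (wd K) x n <+: T := fun x n hn hp =>
    (hX.pre _ (sg_ne_nil (G_pos h hH x)) ((sg_prefix _ _ hn).trans hp)).elim (hno x) (E0 hF hK x)
  have hdev : ∀ x c, c ≠ wd K (x - 1) → ∀ n, G K x ≤ n → ¬ X (c :: sg (wd K) x n) := by
    intro x c hcx n hn
    induction n, hn using Nat.le_induction with
    | base => exact fun hx =>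
        (hX.right _ _ (sg_ne_nil (G_pos h hH x)) hx).elim (hno x) (E0 hF hK x)
    | succ n hn ih =>
      intro hx
      rw [sg_succ', ← List.cons_append] at hx
      rcases hX.down _ _ (by simp) hx with h1 | h1
      · exact ih h1
      · exact hcx (hc.head_eq h hn (by simpa using h1.2))
  have hstep : ∀ x n, G K x ≤ n → X (sg (wd K) x n) ∨ InU 𝒦 (sg (wd K) x n) →
      G K (x - 1) ≤ n + 1 ∧ X (sg (wd K) (x - 1) (n + 1)) := by
    intro x n hn hx
    refine ⟨(G_pred_le h hH x).trans (by omega), ?_⟩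
    obtain ⟨c, hc'⟩ := (hX.back _ hx).resolve_left (hpre x n hn)
    have : c = wd K (x - 1) := by
      by_contra hne; exact hdev x c hne n hn hc'
    rwa [this, cons_sg] at hc'
  obtain ⟨a, haK, hau⟩ := List.countP_pos_iff.1 (show 0 < K.countP up from h.per_pos)
  have hup : IsUp a := (h.arc a haK).resolve_right fun hd => by simp [hd.up] at hau
  obtain ⟨x, hx⟩ := h.vert_sg (h.snd_mem haK)
  have hG : G K x ≤ a.2.length := G_le (hx ▸ h.snd_mem haK)
  have hU : InU 𝒦 (sg (wd K) x a.2.length) := by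
    rw [← hx]
    exact ⟨hup.1, hup.eq_mk ▸ List.mem_flatten.2 ⟨K, hK, haK⟩⟩
  have hall : ∀ k : ℕ, ∃ y n, k ≤ n ∧ G K y ≤ n ∧ X (sg (wd K) y n) := by
    intro k
    induction k with
    | zero => exact ⟨_, _, Nat.zero_le _, hstep x _ hG (Or.inr hU)⟩
    | succ k ih =>
      obtain ⟨y, n, h1, h2, h3⟩ := ih
      exact ⟨_, _, Nat.succ_le_succ h1, hstep y n h2 (Or.inl h3)⟩
  obtain ⟨y, n, h1, -, h3⟩ := hall (T.length + 1)
  have := hX.bdd _ h3
  rw [length_sg] at this; omega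

/-- An envelope point of `K` is not above the envelope of a clean circuit that is at least as
high. -/
theorem trap (hF : Fam 𝒦) (hK : K ∈ 𝒦) (hK' : K' ∈ 𝒦) (hne : K' ≠ K) (hH : High K)
    (hc : Clean 𝒦 K') (hh : hgt K ≤ hgt K') {x x' : ℤ}
    (e : sg (wd K) x (G K x) = sg (wd K') x' (G K x)) : G K x < G K' x' := by
  have h := hF.cl K hK
  have h' := hF.cl K' hK'
  by_contra hle
  have hstep : ∀ x x' : ℤ, sg (wd K) x (G K x) = sg (wd K') x' (G K x) → G K' x' ≤ G K x →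
      sg (wd K) (x - 1) (G K (x - 1)) = sg (wd K') (x' - 1) (G K (x - 1)) ∧
        G K' (x' - 1) ≤ G K (x - 1) := by
    intro x x' e hle
    have h1 := E1 h hH x
    rw [← cons_sg, e] at h1
    have h2 := hc.head_eq h' hle (List.mem_flatten.2 ⟨K, hK, h1⟩)
    have e' : sg (wd K) (x - 1) (G K x + 1) = sg (wd K') (x' - 1) (G K x + 1) := by
      rw [← cons_sg, ← cons_sg, e, h2]
    refine ⟨sg_eq_of_le e' (G_pred_le h hH x), ?_⟩
    by_contra hlt
    have h3 : G K' (x' - 1) ≤ G K x + 1 := (G_pred_le h' hc.1 x').trans (by omega)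
    have h4 : sg (wd K) (x - 1) (G K' (x' - 1)) ∈ verts K :=
      E2 h hH (by omega) (by simpa using h3)
    rw [sg_eq_of_le e' h3] at h4
    exact hne (hF.eq_of_mem hK' hK (h'.sg_G_mem _) h4)
  have hall : ∀ k : ℕ, sg (wd K) (x - k) (G K (x - k)) = sg (wd K') (x' - k) (G K (x - k)) ∧
      G K' (x' - k) ≤ G K (x - k) := by
    intro k
    induction k with
    | zero => simpa using ⟨e, not_lt.1 hle⟩
    | succ k ih => simpa [sub_sub] using hstep _ _ ih.1 ih.2
  obtain ⟨a, -, ha⟩ := h.exists_G_eq_hgt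
  obtain ⟨r, -, k, hk⟩ := exists_range_rep h.per_pos (x - a)
  obtain ⟨h1, h2⟩ := hall r
  have h3 : G K (x - r) = hgt K := by
    have := (G_periodic K).int_mul k a
    simp only [Int.cast_id] at this
    rw [show x - r = a + k * per K by omega, this, ha]
  have h4 := h'.hgt_le_G (x' - r)
  have h5 : G K' (x' - r) = G K (x - r) := by omega
  have h6 := h.sg_G_mem (x - r)
  rw [h1, ← h5] at h6
  exact hne (hF.eq_of_mem hK' hK (h'.sg_G_mem _) h6)

/-- The circuits that may meet the square of a bump of `K`. -/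
def Rel (𝒦 : List Walk) (K K' : Walk) : Prop := K' ∈ 𝒦 ∧ K' ≠ K ∧ Clean 𝒦 K' ∧ hgt K ≤ hgt K'

/-- The point `(x, n)` of `wd K` is not strictly above the envelope path of a relevant circuit. -/
def Good (𝒦 : List Walk) (K : Walk) (x : ℤ) (n : ℕ) : Prop :=
  ∀ K' x', Rel 𝒦 K K' → sg (wd K) x n = sg (wd K') x' n → n ≤ G K' (x' + 1) + 1

theorem Bump.rel {a : ℤ} (hb : Bump 𝒦 K a) (hK' : K' ∈ 𝒦) (hne : K' ≠ K) {x : ℤ} {n : ℕ}
    (h1 : a ≤ x) (h2 : x ≤ a + per K) (h3 : a + hgt K ≤ x + n) (h4 : x + n ≤ a + hgt K + per K)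
    (hv : sg (wd K) x n ∈ verts K') : Rel 𝒦 K K' := by
  obtain ⟨i, rfl⟩ := Int.le.dest h1
  refine ⟨hK', hne, ?_⟩
  by_contra hno
  refine hb.2.2 ⟨i, List.mem_range.2 (by omega), K', hK', hne, ⟨_, hv, ?_⟩, hno⟩
  refine ⟨by simp, ?_, ?_⟩ <;> rw [hb.2.1, length_sg] <;> omega

/-- Two clean circuits cannot merge above both envelopes. -/
theorem no_merge (hF : Fam 𝒦) {K₁ K₂ : Walk} (h₁ : K₁ ∈ 𝒦) (h₂ : K₂ ∈ 𝒦) (hH : High K₁)
    (hc : Clean 𝒦 K₂) {z₁ z₂ : ℤ} {m : ℕ} (e : sg (wd K₁) z₁ m = sg (wd K₂) z₂ m)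
    (g₁ : G K₁ z₁ ≤ m) (g₂ : G K₂ z₂ ≤ G K₁ z₁) : wd K₁ (z₁ - 1) = wd K₂ (z₂ - 1) := by
  have h1 := E1 (hF.cl _ h₁) hH z₁
  rw [← cons_sg, sg_eq_of_le e g₁] at h1
  exact hc.head_eq (hF.cl _ h₂) g₂ (List.mem_flatten.2 ⟨K₁, h₁, h1⟩)

section descent
variable (hF : Fam 𝒦) (hK : K ∈ 𝒦) {a : ℤ} (hb : Bump 𝒦 K a)
include hF hK hb

theorem Bump.top_le {x : ℤ} (h2 : x ≤ a + per K) : x + G K x ≤ a + hgt K + per K := by
  have := G_mono (hF.cl K hK) hb.1.1 h2
  rw [G_periodic K a, hb.2.1] at this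
  omega

/-- An obstruction to the move to the right. -/
theorem Bump.right_obs {x : ℤ} {n : ℕ} (h1 : a ≤ x) (h2 : x < a + per K)
    (h3 : a + hgt K ≤ x + (n + 1 : ℕ)) (h4 : n + 1 ≤ G K x)
    (ho : InU 𝒦 (sg (wd K) (x + 1) n) ∨ ¬ Good 𝒦 K (x + 1) n) :
    ∃ K₂ z, Rel 𝒦 K K₂ ∧ sg (wd K) (x + 1) n = sg (wd K₂) z n ∧ G K₂ z + 1 ≤ n := by
  have h := hF.cl K hK
  rcases ho with hU | hG
  · obtain ⟨K₂, hK₂, ha⟩ := List.mem_flatten.1 hU.2
    have h₂ := hF.cl K₂ hK₂
    have hv : sg (wd K) (x + 1) n ∈ verts K₂ := h₂.snd_mem ha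
    have hne : K₂ ≠ K := by
      rintro rfl
      have e1 := G_le hv
      have e2 := G_le_succ h hb.1.1 x
      have e3 : n = G K₂ (x + 1) := by omega
      exact E0 hF hK (x + 1) (e3 ▸ hU)
    have h5 := hb.top_le hF hK h2.le
    obtain ⟨z, hz⟩ := h₂.vert_sg hv
    rw [length_sg] at hz
    refine ⟨K₂, z, hb.rel hK₂ hne (by omega) (by omega) (by push_cast at h3; omega)
      (by omega) hv, hz, ?_⟩
    have h6 := fst_mem_verts ha
    simp only [hz, dropLast_sg] at h6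
    have h7 := G_le h6
    have h8 : 0 < n := by simpa using List.length_pos_iff.2 hU.1
    omega
  · unfold Good at hG
    push Not at hG
    obtain ⟨K₂, z, hr, e, hlt⟩ := hG
    have := G_le_succ (hF.cl K₂ hr.1) hr.2.2.1.1 z
    exact ⟨K₂, z, hr, e, by omega⟩

/-- An obstruction to the move downwards. -/
theorem Bump.down_obs {x : ℤ} {n : ℕ} (h1 : a ≤ x) (h2 : x ≤ a + per K)
    (h3 : a + hgt K ≤ x + n) (h4 : n + 1 ≤ G K x)
    (ho : InD 𝒦 (sg (wd K) x n) ∨ ¬ Good 𝒦 K x n) :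
    ∃ K₁ z, Rel 𝒦 K K₁ ∧ sg (wd K) x n = sg (wd K₁) z n ∧ G K₁ (z + 1) + 1 ≤ n := by
  rcases ho with hD | hG
  · obtain ⟨K₁, hK₁, ha⟩ := List.mem_flatten.1 hD.2
    have h₁ := hF.cl K₁ hK₁
    have hv : sg (wd K) x n ∈ verts K₁ := fst_mem_verts ha
    have hne : K₁ ≠ K := by
      rintro rfl
      have e1 := G_le hv
      omega
    have h5 := hb.top_le hF hK h2
    obtain ⟨z, hz⟩ := h₁.vert_sg hv
    rw [length_sg] at hz
    refine ⟨K₁, z, hb.rel hK₁ hne h1 h2 h3 (by omega) hv, hz, ?_⟩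
    have h6 := h₁.snd_mem ha
    simp only [hz, tail_sg] at h6
    have h7 := G_le h6
    have h8 : 0 < n := by simpa using List.length_pos_iff.2 hD.1
    omega
  · unfold Good at hG
    push Not at hG
    obtain ⟨K₁, z, hr, e, hlt⟩ := hG
    exact ⟨K₁, z, hr, e, by omega⟩

/-- The spare occurrence travels down to the corner of the square. -/
theorem Bump.descent (hX : Exc 𝒦 T X) (n : ℕ) : ∀ x : ℤ, a ≤ x → x ≤ a + per K →
    a + hgt K ≤ x + n → n ≤ G K x → X (sg (wd K) x n) → Good 𝒦 K x n →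
    X (sg (wd K) (a + per K) (hgt K - per K)) := by
  have h := hF.cl K hK
  have hH : per K < hgt K := hb.1.1
  induction n with
  | zero => intro x _ _ _; omega
  | succ n ih =>
    intro x h1 h2 h3 h4 hx hg
    by_cases hend : x = a + per K ∧ n + 1 = hgt K - per K
    · rwa [hend.1, hend.2] at hx
    have hn : 0 < n := by push_cast at h3; omega
    have hR : x < a + per K → ¬ (InU 𝒦 (sg (wd K) (x + 1) n) ∨ ¬ Good 𝒦 K (x + 1) n) →
        X (sg (wd K) (a + per K) (hgt K - per K)) := by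
      intro h2' ho
      push Not at ho
      have := G_le_succ h hb.1.1 x
      rw [sg_succ] at hx
      exact ih (x + 1) (by omega) (by omega) (by push_cast at h3; omega) (by omega)
        ((hX.right _ _ (sg_ne_nil hn) hx).resolve_right ho.1) ho.2
    have hD : a + hgt K ≤ x + n → ¬ (InD 𝒦 (sg (wd K) x n) ∨ ¬ Good 𝒦 K x n) →
        X (sg (wd K) (a + per K) (hgt K - per K)) := by
      intro h3' ho
      push Not at ho
      rw [sg_succ'] at hx
      exact ih x h1 h2 h3' (by omega)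
        ((hX.down _ _ (sg_ne_nil hn) hx).resolve_right ho.1) ho.2
    by_cases hlow : n ≤ hgt K
    · by_cases h2' : x < a + per K
      · refine hR h2' fun ho => ?_
        obtain ⟨K₂, z, hr, -, hlt⟩ := hb.right_obs hF hK h1 h2' h3 h4 ho
        have := (hF.cl K₂ hr.1).hgt_le_G z
        have := hr.2.2.2
        omega
      · have h3' : a + hgt K ≤ x + n := by push_cast at h3; omega
        refine hD h3' fun ho => ?_
        obtain ⟨K₁, z, hr, -, hlt⟩ := hb.down_obs hF hK h1 h2 h3' h4 ho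
        have := (hF.cl K₁ hr.1).hgt_le_G (z + 1)
        have := hr.2.2.2
        omega
    · have h2' : x < a + per K := by
        by_contra hc
        have : x = a + per K := by omega
        rw [this, G_periodic K a, hb.2.1] at h4
        omega
      have h3' : a + hgt K ≤ x + n := by omega
      by_contra hno
      obtain ⟨K₂, z₂, hr₂, e₂, g₂⟩ :=
        hb.right_obs hF hK h1 h2' h3 h4 (by_contra fun ho => hno (hR h2' ho))
      obtain ⟨K₁, z₁, hr₁, e₁, g₁⟩ :=
        hb.down_obs hF hK h1 h2 h3' h4 (by_contra fun ho => hno (hD h3' ho))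
      have c₂ : wd K x ≠ wd K₂ (z₂ - 1) := by
        intro e
        have := hg K₂ (z₂ - 1) hr₂ (by rw [sg_succ, ← cons_sg, e, e₂])
        rw [sub_add_cancel] at this
        omega
      have c₁ : wd K x = wd K₁ z₁ := by simpa using sg_eq_iff.1 e₁ 0 hn
      have e : sg (wd K₁) (z₁ + 1) (n - 1) = sg (wd K₂) z₂ (n - 1) := by
        rw [← tail_sg, ← e₁, tail_sg, sg_eq_of_le e₂ (Nat.sub_le _ _)]
      apply c₂
      rw [c₁]
      rcases le_total (G K₂ z₂) (G K₁ (z₁ + 1)) with hle | hle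
      · simpa using no_merge hF hr₁.1 hr₂.1 hr₁.2.2.1.1 hr₂.2.2.1 e (by omega) hle
      · simpa using (no_merge hF hr₂.1 hr₁.1 hr₂.2.2.1.1 hr₁.2.2.1 e.symm (by omega) hle).symm

theorem Bump.exc (hX : Exc 𝒦 T X) : X (sg (wd K) a (hgt K - per K)) := by
  have h := hF.cl K hK
  obtain ⟨x, hx⟩ := exists_exc_env hF hX hK hb.1
  obtain ⟨r, hr, k, hk⟩ := exists_range_rep h.per_pos (x - a)
  have e : x = a + r + k * per K := by omega
  have e1 := (G_periodic K).int_mul k (a + r)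
  have e2 := sg_periodic ((wd_periodic K).int_mul k) (a + r) (G K (a + r))
  simp only [Int.cast_id] at e1 e2
  rw [e, e1, e2] at hx
  rw [← sg_periodic (wd_periodic K)]
  refine hb.descent hF hK hX _ (a + r) (by omega) (by omega) ?_ le_rfl hx ?_
  · have := G_mono h hb.1.1 (show a ≤ a + r by omega)
    rwa [hb.2.1] at this
  · intro K' x' hr e
    have h1 := trap hF hK hr.1 hr.2.1 hb.1.1 hr.2.2.1 hr.2.2.2 e
    have h2 := G_le_succ (hF.cl K' hr.1) hr.2.2.1.1 x'
    omega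

end descent

theorem mem_bumps_exc (hF : Fam 𝒦) (hX : Exc 𝒦 T X) {w : Str} (hw : w ∈ bumps 𝒦) : X w := by
  simp only [bumps, List.mem_flatMap, List.mem_map, List.mem_filter, decide_eq_true_eq] at hw
  obtain ⟨K, hK, a, ⟨-, hb⟩, rfl⟩ := hw
  exact hb.exc hF hK hX

end Crest.Agent.R287
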