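/-
R287/Circ: multisets of strings, their arcs, and the multiset of occurrences `infs T`.
TASK (about 350 lines).  It may help to prove `count w (tl M) = countP (·.tail = w) M` for `w ≠ []`
(`0` for `w = []`), `List.count_diff`, `List.subperm_ext_iff`, `List.perm_iff_count`.
-/
import Crest.Agent.R287.Walk

set_option autoImplicit false

namespace Crest.Agent.R287

open List

variable {M N : List Str} {T w : Str}

theorem pre_cons (c : ℕ) (T : Str) : pre (c :: T) = [c] :: (pre T).map (c :: ·) := by
  simp [pre, List.range_succ_eq_map, List.map_map, Function.comp_def]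

theorem suf_cons (c : ℕ) (T : Str) : suf (c :: T) = (c :: T) :: suf T := by
  simp [suf, List.range_succ_eq_map, List.map_map, Function.comp_def]

theorem pre_concat (T : Str) (c : ℕ) : pre (T ++ [c]) = pre T ++ [T ++ [c]] := by
  induction T with
  | nil => simp [pre]
  | cons d T ih => rw [List.cons_append, pre_cons, ih, pre_cons]; simp

theorem tl_append' (M N : List Str) : tl (M ++ N) = tl M ++ tl N := by simp [tl]
theorem dl_append' (M N : List Str) : dl (M ++ N) = dl M ++ dl N := by simp [dl]

theorem tl_perm' (h : M.Perm N) : (tl M).Perm (tl N) := (h.map _).filter _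
theorem dl_perm' (h : M.Perm N) : (dl M).Perm (dl N) := (h.map _).filter _

theorem mem_tl' : w ∈ tl M ↔ w ≠ [] ∧ ∃ c, c :: w ∈ M := by
  simp only [tl, List.mem_filter, List.mem_map, decide_eq_true_eq]
  constructor
  · rintro ⟨⟨u, hu, rfl⟩, hne⟩
    cases u with
    | nil => simp at hne
    | cons c u => exact ⟨hne, c, hu⟩
  · rintro ⟨hne, c, hc⟩
    exact ⟨⟨_, hc, rfl⟩, hne⟩

theorem mem_dl_of (c : ℕ) (hne : w ≠ []) (hc : w ++ [c] ∈ M) : w ∈ dl M := by
  simp only [dl, List.mem_filter, List.mem_map, decide_eq_true_eq]
  exact ⟨⟨_, hc, by simp⟩, hne⟩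

/-- `suf (c :: T) = (c :: T) :: suf T`, `pre (c :: T) = [c] :: (pre T).map (c :: ·)`. -/
theorem infs_cons (c : ℕ) (T : Str) : infs (c :: T) = pre (c :: T) ++ infs T := by
  simp [infs, suf_cons]

theorem mem_pre : w ∈ pre T ↔ w ≠ [] ∧ w <+: T := by
  induction T generalizing w with
  | nil => simp [pre]
  | cons c T ih =>
    rw [pre_cons]
    cases w with
    | nil => simp
    | cons d w =>
      simp only [List.mem_cons, List.cons.injEq, List.mem_map, ne_eq, reduceCtorEq,
        not_false_eq_true, List.cons_prefix_cons, true_and]
      constructor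
      · rintro (⟨rfl, rfl⟩ | ⟨u, hu, rfl, rfl⟩)
        · simp
        · exact ⟨rfl, (ih.1 hu).2⟩
      · rintro ⟨rfl, hw⟩
        by_cases h0 : w = []
        · exact Or.inl ⟨rfl, h0⟩
        · exact Or.inr ⟨w, ih.2 ⟨h0, hw⟩, rfl, rfl⟩

theorem mem_infs : w ∈ infs T ↔ w ≠ [] ∧ w <:+: T := by
  induction T with
  | nil => simp [infs, suf]
  | cons c T ih =>
    rw [infs_cons, List.mem_append, ih, mem_pre, List.infix_cons_iff]
    tauto

theorem tl_pre_cons (c : ℕ) (T : Str) : tl (pre (c :: T)) = pre T := by
  rw [pre_cons]
  simp only [tl, List.map_cons, List.tail_cons, List.map_map, Function.comp_def, List.map_id']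
  rw [List.filter_cons_of_neg (by simp), List.filter_eq_self]
  intro a ha
  simpa using (mem_pre.1 ha).1

theorem dl_pre_concat (U : Str) (c : ℕ) : dl (pre (U ++ [c])) = pre U := by
  induction U using List.reverseRecOn generalizing c with
  | nil => simp [pre, dl]
  | append_singleton V d ih =>
    rw [pre_concat, dl_append', ih, pre_concat]
    simp [dl]

theorem pre_perm_dl {U : Str} (hU : U ≠ []) : (pre U).Perm (U :: dl (pre U)) := by
  obtain ⟨V, c, rfl⟩ : ∃ V c, U = V ++ [c] := ⟨_, _, (List.dropLast_append_getLast hU).symm⟩
  rw [dl_pre_concat, pre_concat]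
  exact List.perm_append_singleton _ _

/-- An occurrence of `w` is at the start or is preceded by a letter.  Induction on `T` with
`infs_cons` and `tl (pre (c :: T)) = pre T`. -/
theorem infs_perm_tl (T : Str) : (infs T).Perm (pre T ++ tl (infs T)) := by
  induction T with
  | nil => simp [infs, suf, pre, tl]
  | cons c T ih =>
    rw [infs_cons, tl_append', tl_pre_cons]
    exact ih.append_left _

/-- An occurrence of `w` is at the end or is followed by a letter.  Induction on `T` with
`infs_cons` and `pre U ~ U :: dl (pre U)` for `U ≠ []`. -/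
theorem infs_perm_dl (T : Str) : (infs T).Perm (suf T ++ dl (infs T)) := by
  induction T with
  | nil => simp [infs, suf, dl]
  | cons c T ih =>
    rw [infs_cons, dl_append', suf_cons]
    have h1 := pre_perm_dl (U := c :: T) (by simp)
    rw [List.perm_iff_count] at *
    intro x
    have := ih x
    have := h1 x
    simp only [List.count_append, List.count_cons] at *
    omega

theorem tl_subperm (h : M <+~ N) : tl M <+~ tl N := by
  obtain ⟨L, h1, h2⟩ := h
  exact ⟨tl L, tl_perm' h1, (h2.map _).filter _⟩

theorem dl_subperm (h : M <+~ N) : dl M <+~ dl N := by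
  obtain ⟨L, h1, h2⟩ := h
  exact ⟨dl L, dl_perm' h1, (h2.map _).filter _⟩

theorem arcs_isArc (h : [] ∉ M) : ∀ a ∈ arcs M, IsArc a := by
  intro a ha
  rcases List.mem_append.1 ha with ha | ha
  · obtain ⟨u, hu, rfl⟩ := List.mem_map.1 ha
    exact Or.inl ⟨fun e => h ((show u = [] from e) ▸ List.diff_subset _ _ hu), rfl⟩
  · obtain ⟨u, hu, rfl⟩ := List.mem_map.1 ha
    exact Or.inr ⟨fun e => h ((show u = [] from e) ▸ List.diff_subset _ _ hu), rfl⟩

theorem diff_append_perm' (h : M <+~ N) : (N.diff M ++ M).Perm N :=
  List.perm_append_comm.trans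
    (List.subperm_append_diff_self_of_count_le fun x _ => h.count_le x)

theorem mem_diff_iff_count : w ∈ N.diff M ↔ M.count w < N.count w := by
  rw [← List.count_pos_iff, List.count_diff]; omega

theorem tail_eq_nil_iff_dropLast (u : Str) : u.tail = [] ↔ u.dropLast = [] := by
  rw [← List.length_eq_zero_iff, ← List.length_eq_zero_iff, List.length_tail,
    List.length_dropLast]

theorem tl_dropLast (M : List Str) : (tl M).map List.dropLast = (dl M).map List.tail := by
  induction M with
  | nil => rfl
  | cons u M ih =>
    unfold tl dl at *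
    simp only [List.map_cons]
    by_cases hu : u.tail = []
    · have hu' := (tail_eq_nil_iff_dropLast u).1 hu
      rw [List.filter_cons_of_neg (by simp [hu]), List.filter_cons_of_neg (by simp [hu']), ih]
    · have hu' : u.dropLast ≠ [] := fun e => hu ((tail_eq_nil_iff_dropLast u).2 e)
      rw [List.filter_cons_of_pos (by simp [hu]), List.filter_cons_of_pos (by simp [hu']),
        List.map_cons, List.map_cons, ih, List.tail_dropLast]

theorem filter_nil_eq (M : List Str) :
    ((M.map List.tail).filter fun w : Str => !decide (w ≠ [])) =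
      (M.map List.dropLast).filter fun w : Str => !decide (w ≠ []) := by
  induction M with
  | nil => rfl
  | cons u M ih =>
    simp only [List.map_cons]
    by_cases hu : u.tail = []
    · have hu' := (tail_eq_nil_iff_dropLast u).1 hu
      rw [List.filter_cons_of_pos (by simp [hu]), List.filter_cons_of_pos (by simp [hu']), ih,
        hu, hu']
    · have hu' : u.dropLast ≠ [] := fun e => hu ((tail_eq_nil_iff_dropLast u).2 e)
      rw [List.filter_cons_of_neg (by simp [hu]), List.filter_cons_of_neg (by simp [hu']), ih]

theorem length_tl_add (M : List Str) :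
    (tl M).length + M.countP (fun w : Str => decide (w.tail = [])) = M.length := by
  induction M with
  | nil => rfl
  | cons u M ih =>
    unfold tl at *
    simp only [List.map_cons, List.countP_cons, List.length_cons]
    by_cases hu : u.tail = []
    · rw [List.filter_cons_of_neg (by simp [hu])]; simp only [hu, decide_true, if_true]; omega
    · rw [List.filter_cons_of_pos (by simp [hu])]
      simp only [hu, decide_false, List.length_cons, Bool.false_eq_true, if_false]; omega

/-- Recipe.  Put `U = M.diff (tl M)`, `D = M.diff (dl M)`, so `U ++ tl M ~ M ~ D ++ dl M`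
(`List.subperm_append_diff_self_of_count_le` or counts).  Tails: `U.map dropLast ++ D`, heads:
`U ++ D.map tail`.  With `k = countP (·.length = 1) M`: `M.map dropLast ~ dl M ++ replicate k []`,
`M.map tail ~ tl M ++ replicate k []`, and `(tl M).map dropLast ~ (dl M).map tail` (both are
`w ↦ w.tail.dropLast` over the members of length `≥ 2`).  Cancel (multisets / counts). -/
theorem Circ.balanced (h : Circ M) : Balanced (arcs M) := by
  have h1 := diff_append_perm' h.tl
  have h2 := diff_append_perm' h.dl
  have a1 := h1.map List.dropLast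
  have a2 := h2.map List.tail
  have a3 := List.filter_append_perm (fun w : Str => decide (w ≠ [])) (M.map List.dropLast)
  have a4 := List.filter_append_perm (fun w : Str => decide (w ≠ [])) (M.map List.tail)
  have a5 := tl_dropLast M
  have a6 := filter_nil_eq M
  rw [List.map_append] at a1 a2
  rw [a5] at a1
  rw [a6] at a4
  change (R287.dl M ++ _).Perm _ at a3
  change (R287.tl M ++ _).Perm _ at a4
  unfold Balanced arcs
  simp only [List.map_append, List.map_map, Function.comp_def, List.map_id']
  change ((M.diff (R287.tl M)).map List.dropLast ++ M.diff (R287.dl M)).Perm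
    (M.diff (R287.tl M) ++ (M.diff (R287.dl M)).map List.tail)
  rw [List.perm_iff_count]
  intro x
  have b1 := h1.count_eq x
  have b2 := h2.count_eq x
  have b3 := a1.count_eq x
  have b4 := a2.count_eq x
  have b5 := a3.count_eq x
  have b6 := a4.count_eq x
  simp only [List.count_append] at b1 b2 b3 b4 b5 b6 ⊢
  omega

/-- `cost (arcs M) = |M| - |tl M|` is the number of one-letter members of `M`; for `infs T` that
number is `|infs T| - |tl (infs T)| = |pre T| = |T|`; `List.Subperm.countP_le`. -/
theorem Circ.cost_le (h : Circ M) (hT : M <+~ infs T) : cost (arcs M) ≤ T.length := by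
  have h1 := (diff_append_perm' h.tl).length_eq
  have h2 := length_tl_add M
  have h3 := length_tl_add (infs T)
  have h4 := (infs_perm_tl T).length_eq
  have h5 := hT.countP_le fun w : Str => decide (w.tail = [])
  have h6 : (pre T).length = T.length := by simp [pre]
  have h7 : cost (arcs M) ≤ (M.diff (R287.tl M)).length := by
    unfold arcs
    rw [cost_append]
    have e1 := cost_le_length ((M.diff (R287.tl M)).map fun w => (w.dropLast, w))
    have e2 : cost ((M.diff (R287.dl M)).map fun w => (w, w.tail)) = 0 := by
      unfold cost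
      rw [List.countP_eq_zero]
      intro a ha
      obtain ⟨u, -, rfl⟩ := List.mem_map.1 ha
      simp [up]
    rw [List.length_map] at e1
    omega
  rw [List.length_append] at h1 h4
  omega

/-- `InU 𝒦 w ↔ count w (tl M) < count w M` and `InD 𝒦 w ↔ count w (dl M) < count w M` (lengths
separate the two halves of `arcs M`).  Write `infs T ~ M ++ R` with `R = (infs T).diff M`, so that
`X w ↔ w ∈ R`; `infs_perm_tl` gives for `w ≠ []`
`count w R + (count w M - count w (tl M)) = count w (pre T) + count w (tl R)`, and `w ∈ tl R` iff
`c :: w ∈ R` for some `c`.  Same with `dl`, `suf`. -/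
theorem Circ.exc (h : Circ M) (hT : M <+~ infs T) {𝒦 : List Walk} (h𝒦 : 𝒦.flatten.Perm (arcs M)) :
    Exc 𝒦 T fun w => M.count w < (infs T).count w := by
  have hU : ∀ w, InU 𝒦 w ↔ (R287.tl M).count w < M.count w := by
    intro w
    rw [← mem_diff_iff_count, InU, h𝒦.mem_iff]
    constructor
    · rintro ⟨hne, ha⟩
      rcases List.mem_append.1 ha with ha | ha
      · obtain ⟨u, hu, e⟩ := List.mem_map.1 ha
        exact (show u = w from (Prod.ext_iff.1 e).2) ▸ hu
      · obtain ⟨u, -, e⟩ := List.mem_map.1 ha
        obtain ⟨e1, e2⟩ := Prod.ext_iff.1 e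
        have l1 := congrArg List.length e1
        have l2 := congrArg List.length e2
        have := List.length_pos_iff.2 hne
        simp only [List.length_dropLast, List.length_tail] at l1 l2
        omega
    · intro hw
      exact ⟨fun e => h.nil (e ▸ List.diff_subset _ _ hw),
        List.mem_append_left _ (List.mem_map.2 ⟨w, hw, rfl⟩)⟩
  have hD : ∀ w, InD 𝒦 w ↔ (R287.dl M).count w < M.count w := by
    intro w
    rw [← mem_diff_iff_count, InD, h𝒦.mem_iff]
    constructor
    · rintro ⟨hne, ha⟩
      rcases List.mem_append.1 ha with ha | ha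
      · obtain ⟨u, -, e⟩ := List.mem_map.1 ha
        obtain ⟨e1, e2⟩ := Prod.ext_iff.1 e
        have l1 := congrArg List.length e1
        have l2 := congrArg List.length e2
        have := List.length_pos_iff.2 hne
        simp only [List.length_dropLast, List.length_tail] at l1 l2
        omega
      · obtain ⟨u, hu, e⟩ := List.mem_map.1 ha
        exact (show u = w from (Prod.ext_iff.1 e).1) ▸ hu
    · intro hw
      exact ⟨fun e => h.nil (e ▸ List.diff_subset _ _ hw),
        List.mem_append_right _ (List.mem_map.2 ⟨w, hw, rfl⟩)⟩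
  set R := (infs T).diff M with hR
  have hp : (R ++ M).Perm (infs T) := diff_append_perm' hT
  have hX : ∀ w, M.count w < (infs T).count w ↔ w ∈ R := fun w => mem_diff_iff_count.symm
  have c0 : ∀ w, R.count w + M.count w = (infs T).count w := fun w => by
    simpa using hp.count_eq w
  have c1 : ∀ w, (infs T).count w =
      (R287.pre T).count w + ((R287.tl R).count w + (R287.tl M).count w) := fun w => by
    have e1 := (infs_perm_tl T).count_eq w
    have e2 := (tl_perm' hp).count_eq w
    rw [tl_append'] at e2
    simp only [List.count_append] at e1 e2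
    omega
  have c2 : ∀ w, (infs T).count w =
      (suf T).count w + ((R287.dl R).count w + (R287.dl M).count w) := fun w => by
    have e1 := (infs_perm_dl T).count_eq w
    have e2 := (dl_perm' hp).count_eq w
    rw [dl_append'] at e2
    simp only [List.count_append] at e1 e2
    omega
  refine ⟨?_, ?_, ?_, ?_, ?_⟩
  · intro c w hne hc
    have := List.count_pos_iff.2 (mem_tl'.2 ⟨hne, c, (hX _).1 hc⟩)
    have := c1 w
    rw [hU]
    omega
  · intro c w hne hc
    have := List.count_pos_iff.2 (mem_dl_of c hne ((hX _).1 hc))
    have := c2 w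
    rw [hD]
    omega
  · intro w hne hw
    have := List.count_pos_iff.2 (mem_pre.2 ⟨hne, hw⟩)
    have := c1 w
    rw [hU]
    omega
  · intro w hw
    rw [hU] at hw
    have e1 := c1 w
    have e2 := h.tl.count_le w
    by_cases hp' : 0 < (R287.pre T).count w
    · exact Or.inl (mem_pre.1 (List.count_pos_iff.1 hp')).2
    · have : 0 < (R287.tl R).count w := by
        rcases hw with hw | hw
        · have hw' : M.count w < (infs T).count w := hw
          omega
        · have := c0 w
          omega
      obtain ⟨-, c, hc⟩ := mem_tl'.1 (List.count_pos_iff.1 this)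
      exact Or.inr ⟨c, (hX _).2 hc⟩
  · intro w hw
    have : w ∈ infs T := List.count_pos_iff.1 (by omega)
    exact (mem_infs.1 this).2.length_le

/-- Downward induction on `|s|` (lengths in `M` are bounded): either `s ∈ M.diff (tl M)`, or
`s ∈ tl M` is the tail of a longer member of `M`. -/
theorem Circ.suffix_head (h : Circ M) {s : Str} (hs : s ∈ M) : ∃ a ∈ arcs M, s <:+ a.2 := by
  classical
  obtain ⟨u, hu, hmax⟩ := Finset.exists_max_image (M.toFinset.filter fun u => s <:+ u)
    List.length ⟨s, by simp [hs]⟩
  simp only [Finset.mem_filter, List.mem_toFinset] at hu hmax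
  have hn : u ∉ R287.tl M := by
    intro ht
    obtain ⟨-, c, hc⟩ := mem_tl'.1 ht
    have := hmax _ ⟨hc, hu.2.trans (List.suffix_cons _ _)⟩
    simp at this
  exact ⟨(u.dropLast, u),
    List.mem_append_left _ (List.mem_map.2 ⟨u, List.mem_diff_of_mem hu.1 hn, rfl⟩), hu.2⟩

end Crest.Agent.R287
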