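/-
R287/Hook: the connecting walks `hook`, `tri`, `loop`, `tour`.   TASK (about 250 lines).
-/
import Crest.Agent.R287.Env

set_option autoImplicit false

namespace Crest.Agent.R287

open List Function

variable {s s' u v : Str} {k m : ℕ}

/-- `List.take_range`; induction on `k` (`List.range_succ`), `s.drop k = []` for `k ≥ |s|`. -/
theorem downs_wk (s : Str) (k : ℕ) : Wk s (downs s k) (s.drop k) := by
  induction k with
  | zero => simp [downs]
  | succ k ih =>
    unfold downs at ih ⊢
    rw [List.take_range] at ih ⊢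
    rcases le_or_gt s.length k with h | h
    · rw [min_eq_right h] at ih
      rw [min_eq_right (by omega), List.drop_eq_nil_of_le (by omega : s.length ≤ k + 1)]
      rwa [List.drop_eq_nil_of_le h] at ih
    · rw [min_eq_left h.le] at ih
      rw [min_eq_left (by omega), List.range_succ, List.map_append]
      exact ih.append (by simp)

/-- It is convenient to prove first: for `j ≤ m ≤ |s|` the arcs `(s.take i, s.take (i + 1))`,
`i ∈ List.range' j (m - j)`, form a walk from `s.take j` to `s.take m`. -/
theorem ups_wk (s : Str) (j : ℕ) : Wk (s.take j) (ups s j) s := by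
  have key : ∀ n j : ℕ, Wk (s.take j)
      ((List.range' j n).map fun i => (s.take i, s.take (i + 1))) (s.take (j + n)) := by
    intro n
    induction n with
    | zero => intro j; simp
    | succ n ih =>
      intro j
      rw [List.range'_succ, List.map_cons]
      refine ⟨rfl, ?_⟩
      have := ih (j + 1)
      rwa [show j + 1 + n = j + (n + 1) by omega] at this
  unfold ups
  rw [List.range_eq_range', List.drop_range']
  have := key (s.length - j) j
  rw [List.take_of_length_le (i := j + (s.length - j)) (by omega)] at this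
  simpa using this

theorem downs_isDn (s : Str) (k : ℕ) : ∀ a ∈ downs s k, IsDn a := by
  intro a ha
  obtain ⟨i, hi, rfl⟩ := List.mem_map.1 ha
  have hi' : i < s.length := List.mem_range.1 (List.mem_of_mem_take hi)
  refine ⟨?_, ?_⟩
  · simpa using hi'
  · simp

theorem ups_isUp (s : Str) (j : ℕ) : ∀ a ∈ ups s j, IsUp a := by
  intro a ha
  obtain ⟨i, hi, rfl⟩ := List.mem_map.1 ha
  have hi' : i < s.length := List.mem_range.1 (List.mem_of_mem_drop hi)
  refine ⟨?_, ?_⟩
  · rw [← List.length_pos_iff, List.length_take]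
    omega
  · simp only [List.dropLast_eq_take, List.length_take, List.take_take]
    congr 1
    omega

theorem hook_arc (s : Str) (k : ℕ) (s' : Str) : ∀ a ∈ hook s k s', IsArc a := by
  intro a ha
  rcases List.mem_append.1 ha with h | h
  · exact Or.inr (downs_isDn _ _ a h)
  · exact Or.inl (ups_isUp _ _ a h)

theorem hook_wk (h : s.drop k <+: s') : Wk s (hook s k s') s' := by
  refine (downs_wk s k).append ?_
  rw [List.prefix_iff_eq_take.1 h, List.length_drop]
  exact ups_wk _ _

theorem hook_cost (s : Str) (k : ℕ) (s' : Str) :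
    cost (hook s k s') = s'.length - (s.length - k) := by
  unfold hook
  rw [cost_append]
  have h1 : cost (downs s k) = 0 :=
    List.countP_eq_zero.2 fun a ha => by simp [(downs_isDn s k a ha).up]
  have h2 : cost (ups s' (s.length - k)) = (ups s' (s.length - k)).length :=
    List.countP_eq_length.2 fun a ha => (ups_isUp _ _ a ha).up
  rw [h1, h2]
  simp [ups]

/-- For `m < |s'|` the string `s'.take m` is the tail of an arc of `ups` (`Wk.reach_fst`), otherwise
it is `s'` (`Wk.reach`). -/
theorem hook_reach (h : s.drop k <+: s') (hm : s.length - k ≤ m) :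
    Reach (hook s k s') s (s'.take m) := by
  rcases lt_or_ge m s'.length with h1 | h1
  · have : (s'.take m, s'.take (m + 1)) ∈ hook s k s' := by
      refine List.mem_append_right _ (List.mem_map.2 ⟨m, ?_, rfl⟩)
      rw [List.range_eq_range', List.drop_range', List.mem_range'_1]
      omega
    exact (hook_wk h).reach_fst this
  · rw [List.take_of_length_le h1]
    exact (hook_wk h).reach

theorem tri_arc (u : Str) : ∀ a ∈ tri u, IsArc a := by
  intro a ha
  rcases List.mem_append.1 ha with h | h <;> exact hook_arc _ _ _ a h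

theorem tri_wk (u : Str) : Wk [] (tri u) [] := by
  exact (hook_wk (by simp)).append (hook_wk (by simp))

theorem tri_cost (u : Str) : cost (tri u) = u.length := by
  simp [tri, hook_cost]

theorem tri_reach (u : Str) (m : ℕ) : Reach (tri u) [] (u.take m) := by
  exact (hook_reach (s := []) (k := 0) (by simp) (by simp)).mono (List.subset_append_left _ _)

theorem loop_arc (K : Walk) (x : ℤ) (i : ℕ) (v : Str) : ∀ a ∈ loop K x i v, IsArc a := by
  intro a ha
  rcases List.mem_append.1 ha with h | h <;> exact hook_arc _ _ _ a h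

/-- With `s₀ = env K x = sg W x (G x)` (`Cl.env_eq`), `i ≤ p < hgt ≤ G x`:
`s₀.drop i = sg W (x + i) (G x - i) <+: v` and
`v.drop (p - i) = sg W (x + p) (|v| - (p - i)) <+: s₀` (`drop_sg`, `sg_periodic`, `sg_prefix`). -/
theorem loop_spec {K : Walk} (h : Cl K) (hH : High K) {x : ℤ} {i : ℕ} (hi : i ≤ per K)
    (hr : Rect K x i v) :
    Wk (env K x) (loop K x i v) (env K x) ∧ cost (loop K x i v) = per K ∧
      Reach (loop K x i v) v (env K x) := by
  obtain ⟨hv, h1, h2⟩ := hr
  have hG : per K < G K x := lt_of_lt_of_le hH (h.hgt_le_G x)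
  have he := h.env_eq x
  have hl : (env K x).length = G K x := rfl
  have p1 : (env K x).drop i <+: v := by
    rw [he, drop_sg, hv]
    exact sg_prefix _ _ (by omega)
  have p2 : v.drop (per K - i) <+: env K x := by
    rw [he, hv, drop_sg, show x + (i : ℤ) + ((per K - i : ℕ) : ℤ) = x + (per K : ℤ) by
      push_cast [hi]; ring, sg_periodic (wd_periodic K)]
    exact sg_prefix _ _ (by omega)
  refine ⟨(hook_wk p1).append (hook_wk p2), ?_,
    (hook_wk p2).reach.mono (List.subset_append_right _ _)⟩
  unfold loop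
  rw [cost_append, hook_cost, hook_cost, hl]
  omega

/-- The point `(position, string)` is a segment of `W`. -/
def Pt (W : ℤ → ℕ) (P : ℕ × Str) : Prop := P.2 = sg W (P.1 : ℤ) P.2.length

/-- Both ends move to the right. -/
def PtLe (P Q : ℕ × Str) : Prop := P.1 ≤ Q.1 ∧ P.1 + P.2.length ≤ Q.1 + Q.2.length

@[simp] theorem tour_nil (P : ℕ × Str) : tour P [] = [] := rfl
theorem tour_cons (P Q : ℕ × Str) (l : List (ℕ × Str)) :
    tour P (Q :: l) = hook P.2 (Q.1 - P.1) Q.2 ++ tour Q l := rfl

theorem tour_arc (P : ℕ × Str) (pts : List (ℕ × Str)) : ∀ a ∈ tour P pts, IsArc a := by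
  intro a ha
  obtain ⟨z, -, hz⟩ := List.mem_flatMap.1 ha
  exact hook_arc _ _ _ a hz

theorem Pt.drop_prefix {W : ℤ → ℕ} {P Q : ℕ × Str} (hP : Pt W P) (hQ : Pt W Q) (h : PtLe P Q) :
    P.2.drop (Q.1 - P.1) <+: Q.2 := by
  obtain ⟨h1, h2⟩ := h
  unfold Pt at hP hQ
  rw [hP, hQ, drop_sg, show (P.1 : ℤ) + ((Q.1 - P.1 : ℕ) : ℤ) = (Q.1 : ℤ) by push_cast [h1]; ring]
  exact sg_prefix _ _ (by omega)

theorem tour_wk {W : ℤ → ℕ} {P : ℕ × Str} {pts : List (ℕ × Str)} (hW : ∀ Q ∈ P :: pts, Pt W Q)
    (hc : (P :: pts).Pairwise PtLe) : Wk P.2 (tour P pts) (pts.getLastD P).2 := by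
  induction pts generalizing P with
  | nil => simp
  | cons Q l ih =>
    rw [tour_cons, List.getLastD_cons]
    obtain ⟨h1, h2⟩ := List.pairwise_cons.1 hc
    exact (hook_wk ((hW P (by simp)).drop_prefix (hW Q (by simp)) (h1 Q (by simp)))).append
      (ih (fun R hR => hW R (List.mem_cons_of_mem _ hR)) h2)

/-- Telescoping: one hook from `P` to `Q` costs at most `(Q.1 + |Q.2|) - (P.1 + |P.2|)`. -/
theorem tour_cost {P : ℕ × Str} {pts : List (ℕ × Str)} (hc : (P :: pts).Pairwise PtLe) :
    cost (tour P pts) + (P.1 + P.2.length) ≤ (pts.getLastD P).1 + (pts.getLastD P).2.length := by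
  induction pts generalizing P with
  | nil => simp
  | cons Q l ih =>
    rw [tour_cons, List.getLastD_cons, cost_append, hook_cost]
    obtain ⟨h1, h2⟩ := List.pairwise_cons.1 hc
    have h3 := ih h2
    obtain ⟨h4, h5⟩ := h1 Q (by simp)
    omega

/-- Induction on `l₁` (generalizing `P`); the last hook is `hook_reach`. -/
theorem tour_reach {W : ℤ → ℕ} {P Q : ℕ × Str} {l₁ l₂ : List (ℕ × Str)}
    (hW : ∀ Q' ∈ P :: (l₁ ++ Q :: l₂), Pt W Q') (hc : (P :: (l₁ ++ Q :: l₂)).Pairwise PtLe)
    (hm : ∀ P' ∈ P :: l₁, P'.1 + P'.2.length ≤ Q.1 + m) :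
    Reach (tour P (l₁ ++ Q :: l₂)) P.2 (Q.2.take m) := by
  induction l₁ generalizing P with
  | nil =>
    rw [List.nil_append] at hW hc ⊢
    rw [tour_cons]
    obtain ⟨h1, -⟩ := List.pairwise_cons.1 hc
    have h2 := h1 Q (by simp)
    have h3 := hm P (by simp)
    refine (hook_reach ((hW P (by simp)).drop_prefix (hW Q (by simp)) h2) ?_).mono
      (List.subset_append_left _ _)
    have := h2.1
    omega
  | cons R l ih =>
    rw [List.cons_append] at hW hc ⊢
    rw [tour_cons]
    obtain ⟨h1, h2⟩ := List.pairwise_cons.1 hc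
    refine ((hook_wk ((hW P (by simp)).drop_prefix (hW R (by simp))
      (h1 R (by simp)))).reach.mono (List.subset_append_left _ _)).trans ?_
    exact (ih (fun R' hR => hW R' (List.mem_cons_of_mem _ hR)) h2
      fun R' hR => hm R' (List.mem_cons_of_mem _ hR)).mono (List.subset_append_right _ _)

end Crest.Agent.R287
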