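/-
R287/Comb: the walk `comb K' L` through `[]` that visits `K'` and all its far leaves.
TASK (about 350 lines).
-/
import Crest.Agent.R287.Hook

set_option autoImplicit false

namespace Crest.Agent.R287

open List Function

variable {𝒦 R L : List Walk} {K' Z : Walk}

theorem mem_fars {t x : ℕ} :
    (t, x) ∈ fars Z K' ↔ t < K'.length ∧ x < per Z ∧ FarE Z K' t (x : ℤ) := by
  simp only [fars, List.mem_flatMap, List.mem_map, List.mem_filter, List.mem_range,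
    decide_eq_true_eq, Prod.mk.injEq]
  constructor
  · rintro ⟨t', ht, x', ⟨hx, hf⟩, rfl, rfl⟩
    exact ⟨ht, hx, hf⟩
  · rintro ⟨ht, hx, hf⟩
    exact ⟨t, ht, x, ⟨hx, hf⟩, rfl, rfl⟩

theorem mem_leaves : Z ∈ leaves R K' ↔ Z ∈ R ∧ High Z ∧ fars Z K' ≠ [] := by
  simp [leaves]

theorem ch_mem (h : fars Z K' ≠ []) : ch K' Z ∈ fars Z K' := by
  unfold ch
  cases e : fars Z K' with
  | nil => exact absurd e h
  | cons a l => simp

/-- The facts on the chosen far entry. -/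
theorem comb_far (hZ : Cl Z) (hK' : Cl K') (h : fars Z K' ≠ []) :
    (ch K' Z).1 < K'.length ∧
      vx K' (ch K' Z).1 = sg (wd Z) ((ch K' Z).2 : ℤ) (vx K' (ch K' Z).1).length ∧
      G Z ((ch K' Z).2 : ℤ) + per Z ≤ (vx K' (ch K' Z).1).length ∧
      (vx K' (ch K' Z).1).length < per Z + per K' := by
  obtain ⟨h1, -, h3, h4⟩ := mem_fars.1 (show ((ch K' Z).1, (ch K' Z).2) ∈ _ from ch_mem h)
  refine ⟨h1, h3.2.1, h4, entry_lt hZ hK' ?_ h3⟩
  rw [List.getD_eq_getElem _ _ h1]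
  exact List.getElem_mem _

/-- `2 per Z < G + per Z ≤ |vx K' t| < per Z + per K'` (`entry_lt`, `Cl.hgt_le_G`). -/
theorem far_per_lt (hZ : Cl Z) (hK' : Cl K') (hH : High Z) (h : fars Z K' ≠ []) :
    per Z < per K' := by
  obtain ⟨-, -, h3, h4⟩ := comb_far hZ hK' h
  have h5 := hZ.hgt_le_G ((ch K' Z).2 : ℤ)
  unfold High at hH
  omega

/-- Two segments of `W'` that are also segments of a `p`-periodic and of a `q`-periodic word overlap
in fewer than `p + q` letters unless these words agree up to a shift: the overlap is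
`sg W' c₂ (c₁ + n₁ - c₂)` (`sg_eq_drop`, `sg_eq_of_le`); `fine_wilf`. -/
theorem overlap {W' W₁ W₂ : ℤ → ℕ} {p q n₁ n₂ : ℕ} {c₁ c₂ : ℕ} {x₁ x₂ : ℤ} (hp : 0 < p) (hq : 0 < q)
    (h₁ : Periodic W₁ (p : ℤ)) (h₂ : Periodic W₂ (q : ℤ))
    (e₁ : sg W' c₁ n₁ = sg W₁ x₁ n₁) (e₂ : sg W' c₂ n₂ = sg W₂ x₂ n₂)
    (hc : c₁ ≤ c₂) (he : c₁ + n₁ ≤ c₂ + n₂) (hno : ¬ ∃ d : ℤ, ∀ i, W₁ i = W₂ (i + d)) :
    c₁ + n₁ < c₂ + p + q := by
  by_contra hlt
  apply hno
  have h3 := sg_eq_drop e₁ (c₂ - c₁)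
  have h4 : ((c₁ : ℤ) + ((c₂ - c₁ : ℕ) : ℤ)) = c₂ := by omega
  rw [h4] at h3
  have h5 := sg_eq_of_le e₂ (m := n₁ - (c₂ - c₁)) (by omega)
  have h6 := fine_wilf hp hq h₁ h₂ (by omega) (h3.symm.trans h5)
  refine ⟨x₂ - (x₁ + ((c₂ - c₁ : ℕ) : ℤ)), fun i => ?_⟩
  have h7 := h6 (i - (x₁ + ((c₂ - c₁ : ℕ) : ℤ)))
  rw [add_sub_cancel] at h7
  rw [h7]
  congr 1
  ring

theorem comb_ends {α : Type} {f : α → ℕ} {l : List α} (d : α) (hl : l ≠ [])
    (h : l.Pairwise fun a b => f a ≤ f b) :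
    l.headD d ∈ l ∧ l.getLastD d ∈ l ∧ ∀ a ∈ l, f (l.headD d) ≤ f a ∧ f a ≤ f (l.getLastD d) := by
  refine ⟨?_, ?_, fun a ha => ⟨?_, ?_⟩⟩
  · obtain ⟨b, l', rfl⟩ := List.exists_cons_of_ne_nil hl
    simp
  · obtain ⟨l', b, rfl⟩ : ∃ l' b, l = l' ++ [b] :=
      ⟨_, _, (List.dropLast_append_getLast hl).symm⟩
    simp
  · obtain ⟨b, l', rfl⟩ := List.exists_cons_of_ne_nil hl
    rcases List.mem_cons.1 ha with rfl | ha
    · simp
    · simpa using (List.pairwise_cons.1 h).1 a ha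
  · obtain ⟨l', b, rfl⟩ : ∃ l' b, l = l' ++ [b] :=
      ⟨_, _, (List.dropLast_append_getLast hl).symm⟩
    rcases List.mem_append.1 ha with ha | ha
    · simpa using (List.pairwise_append.1 h).2.2 a ha b (by simp)
    · simp [List.mem_singleton.1 ha]

theorem comb_add_le_sum {α : Type} [DecidableEq α] (f : α → ℕ) {l : List α} {a b : α} (ha : a ∈ l)
    (hb : b ∈ l) (hab : a ≠ b) : f a + f b ≤ (l.map f).sum := by
  rw [((List.perm_cons_erase ha).map f).sum_eq, List.map_cons, List.sum_cons]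
  exact Nat.add_le_add_left (List.single_le_sum (fun _ _ => Nat.zero_le _) _
    (List.mem_map_of_mem ((List.mem_erase_of_ne hab.symm).2 hb))) _

theorem comb_exists_max {α : Type} (f : α → ℕ) (p : α → Prop) {l : List α} (h : ∃ a ∈ l, p a) :
    ∃ a ∈ l, p a ∧ ∀ b ∈ l, p b → f b ≤ f a := by
  classical
  obtain ⟨a, ha, hp⟩ := h
  obtain ⟨b, hb, hmax⟩ := Finset.exists_max_image (l.toFinset.filter p) f ⟨a, by simp [ha, hp]⟩
  simp only [Finset.mem_filter, List.mem_toFinset] at hb hmax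
  exact ⟨b, hb.1, hb.2, fun c hc hpc => hmax c ⟨hc, hpc⟩⟩

theorem comb_mem_sel : Z ∈ sel L ↔ Z ∈ L ∧ ¬ ∃ Z' ∈ L, Same Z Z' ∧ hgt Z < hgt Z' := by
  simp only [sel, List.mem_filter, decide_eq_true_eq]

theorem comb_mem_srt : Z ∈ srt K' L ↔ Z ∈ sel L := (List.perm_insertionSort _ _).mem_iff

theorem comb_srt_sorted (K' : Walk) (L : List Walk) :
    (srt K' L).Pairwise fun Z Z' => (ch K' Z).1 ≤ (ch K' Z').1 := by
  have : Std.Total fun Z Z' : Walk => (ch K' Z).1 ≤ (ch K' Z').1 := ⟨fun _ _ => le_total _ _⟩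
  have : IsTrans Walk fun Z Z' : Walk => (ch K' Z).1 ≤ (ch K' Z').1 := ⟨fun _ _ _ => le_trans⟩
  exact List.pairwise_insertionSort _ _

theorem comb_srt_nodup (h : L.Nodup) : (srt K' L).Nodup :=
  (List.perm_insertionSort _ _).nodup_iff.2 (h.filter _)

/-- Distinct selected leaves have different words. -/
theorem comb_not_same (hF : Fam 𝒦) (hL : L ⊆ 𝒦) (hH : ∀ Z ∈ L, High Z) {Z₁ Z₂ : Walk}
    (h₁ : Z₁ ∈ sel L) (h₂ : Z₂ ∈ sel L) (hne : Z₁ ≠ Z₂) :
    ¬ ∃ d : ℤ, ∀ i, wd Z₁ i = wd Z₂ (i + d) := by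
  rintro ⟨d, hd⟩
  obtain ⟨m₁, n₁⟩ := comb_mem_sel.1 h₁
  obtain ⟨m₂, n₂⟩ := comb_mem_sel.1 h₂
  have c₁ := hF.cl _ (hL m₁)
  have c₂ := hF.cl _ (hL m₂)
  rcases stack hF (hL m₁) (hL m₂) hne (hH _ m₁) (hH _ m₂) hd with h | h
  · exact n₁ ⟨Z₂, m₂, (same_iff c₁ c₂).2 ⟨d, hd⟩, h.1⟩
  · exact n₂ ⟨Z₁, m₁, (same_iff c₂ c₁).2 ⟨-d, fun i => by rw [hd]; simp⟩, h.1⟩

/-- The key inequality. -/
theorem comb_key (hF : Fam 𝒦) (hK' : K' ∈ 𝒦) (hL : L ⊆ 𝒦)
    (hfar : ∀ Z ∈ L, High Z ∧ fars Z K' ≠ []) {Z₁ Z₂ : Walk}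
    (h₁ : Z₁ ∈ sel L) (h₂ : Z₂ ∈ sel L) (hne : Z₁ ≠ Z₂) (ht : (ch K' Z₁).1 ≤ (ch K' Z₂).1)
    {q : ℕ} (hq : 0 < q) (hper : Periodic (wd Z₂) (q : ℤ)) :
    col K' (ch K' Z₁).1 + G Z₁ ((ch K' Z₁).2 : ℤ) < col K' (ch K' Z₂).1 + q := by
  have m₁ := (comb_mem_sel.1 h₁).1
  have m₂ := (comb_mem_sel.1 h₂).1
  have c₁ := hF.cl _ (hL m₁)
  have c₂ := hF.cl _ (hL m₂)
  have c' := hF.cl _ hK'
  obtain ⟨a1, a2, a3, -⟩ := comb_far c₁ c' (hfar _ m₁).2
  obtain ⟨b1, b2, -, -⟩ := comb_far c₂ c' (hfar _ m₂).2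
  have := overlap c₁.per_pos hq (wd_periodic Z₁) hper ((c'.vx_eq a1).symm.trans a2)
    ((c'.vx_eq b1).symm.trans b2) (col_mono K' ht) (c'.end_mono ht b1)
    (comb_not_same hF hL (fun Z h => (hfar Z h).1) h₁ h₂ hne)
  omega

theorem comb_pt_length (hZ : Cl Z) (hK' : Cl K') (h : fars Z K' ≠ []) :
    (pt K' Z).2.length = G Z ((ch K' Z).2 : ℤ) := by
  obtain ⟨-, -, h3, -⟩ := comb_far hZ hK' h
  simp only [pt, List.length_take]
  omega

theorem comb_pt_Pt (hZ : Cl Z) (hK' : Cl K') (h : fars Z K' ≠ []) : Pt (wd K') (pt K' Z) := by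
  obtain ⟨h1, -, h3, -⟩ := comb_far hZ hK' h
  unfold Pt
  rw [comb_pt_length hZ hK' h]
  simp only [pt]
  rw [hK'.vx_eq h1, take_sg_of_le (by omega)]

/-- Recipe.  For `Z ∈ L` let `(t, x) = ch K' Z`, `c = col K' t`, `u = vx K' t`; then
`u = sg (wd K') c |u| = sg (wd Z) x |u|` (`Cl.vx_eq`, `mem_fars`), `G Z x + per Z ≤ |u|`,
`|u| < per Z + per K'` (`entry_lt`), `(pt K' Z).2 = sg (wd K') c (G Z x)`.
`s = srt K' L` is a permutation of `sel L` (`List.perm_insertionSort`), sorted by `t`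
(`List.pairwise_insertionSort`), without duplicates, nonempty (a member of `L` of largest `hgt` is
selected).  Distinct selected leaves do not have the same word up to shift (`same_iff`, `stack`).
KEY: if `Z₁ ≠ Z₂` are selected, `t₁ ≤ t₂` and `wd Z₂` has period `q > 0`, then
`c₁ + G Z₁ x₁ < c₂ + q` (`overlap`, `col_mono`, `Cl.end_mono`).  With `q = per Z₂ < G Z₂ x₂` the
point list is `Pairwise PtLe`, so `tour_wk`, `tour_cost` apply with `W = wd K'`:
`cost ≤ c_r + |u_r| - c_f` (`f`, `r` = first, last of `s`).  If `f = r` this is `|u| < per f + per K'`;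
otherwise `overlap` for `(c_r, u_r)` and `(c_f + per K', u_f)` (`Cl.col_le_per`, `Cl.end_le`,
`sg_periodic`) gives `< per K' + per r + per f`.
Reach: `K'` by `tour_reach` at the point `(c_r, u_r)` with `m = |u_r|` (`Cl.vx_mem`).  For `Z ∈ L` take
`Z₂ ∈ L` of largest `hgt` among those with the same word up to a shift `d`
(`wd Z₂ i = wd Z (i + d)`); it is selected; `m = G Z (x₂ + d) ≤ G Z₂ x₂` (`stack`, or `Z₂ = Z` with
`G_congr`), KEY with `q = per Z < m` gives the hypothesis of `tour_reach` at `pt K' Z₂`, and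
`(pt K' Z₂).2.take m = sg (wd Z) (x₂ + d) m ∈ verts Z` (`Cl.sg_G_mem`). -/
theorem comb_spec (hF : Fam 𝒦) (hK' : K' ∈ 𝒦) (hL : L <+ 𝒦) (hne : L ≠ [])
    (hfar : ∀ Z ∈ L, High Z ∧ fars Z K' ≠ []) :
    Wk [] (comb K' L) [] ∧ (∀ a ∈ comb K' L, IsArc a) ∧
      cost (comb K' L) ≤ per K' + (L.map per).sum ∧
      ∀ Z ∈ K' :: L, ∃ v ∈ verts Z, Reach (comb K' L) [] v := by
  have hsub : L ⊆ 𝒦 := hL.subset
  have c' := hF.cl _ hK'
  have hcl : ∀ Z ∈ L, Cl Z := fun Z h => hF.cl _ (hsub h)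
  have hsL : ∀ Z ∈ srt K' L, Z ∈ L := fun Z h => (comb_mem_sel.1 (comb_mem_srt.1 h)).1
  -- the representative of the class of a leaf
  have hrep : ∀ Z ∈ L, ∃ Z₂ ∈ srt K' L, ∃ d : ℤ, (∀ i, wd Z₂ i = wd Z (i + d)) ∧
      ∀ x, G Z (x + d) ≤ G Z₂ x := by
    intro Z hZ
    obtain ⟨Z₂, m₂, ⟨d, hd⟩, hmax⟩ := comb_exists_max hgt
      (fun Z₂ => ∃ d : ℤ, ∀ i, wd Z₂ i = wd Z (i + d)) ⟨Z, hZ, 0, fun i => by simp⟩
    refine ⟨Z₂, comb_mem_srt.2 (comb_mem_sel.2 ⟨m₂, ?_⟩), d, hd, fun x => ?_⟩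
    · rintro ⟨Z', m', hs, hlt⟩
      obtain ⟨d', hd'⟩ := (same_iff (hcl _ m₂) (hcl _ m')).1 hs
      refine absurd (hmax Z' m' ⟨d - d', fun i => ?_⟩) (not_le.2 hlt)
      have := hd' (i - d')
      rw [sub_add_cancel, hd] at this
      rw [← this]
      congr 1
      ring
    · by_cases e : Z₂ = Z
      · subst e
        exact (G_congr fun i => by rw [hd (x + i)]; congr 1; ring).le
      · rcases stack hF (hsub m₂) (hsub hZ) e (hfar _ m₂).1 (hfar _ hZ).1 hd with h | h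
        · exact absurd (hmax Z hZ ⟨0, fun i => by simp⟩) (not_le.2 h.1)
        · exact (h.2 x).le
  have hsne : srt K' L ≠ [] := by
    obtain ⟨Z, hZ⟩ := List.exists_mem_of_ne_nil _ hne
    obtain ⟨Z₂, h, -⟩ := hrep Z hZ
    exact List.ne_nil_of_mem h
  have hsort := comb_srt_sorted K' L
  have hnd : (srt K' L).Nodup := comb_srt_nodup (hF.nodup.sublist hL)
  obtain ⟨hf, hr, hfr⟩ := comb_ends (f := fun Z => (ch K' Z).1) [] hsne hsort
  unfold comb
  generalize (srt K' L).headD [] = f at hf hfr ⊢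
  generalize (srt K' L).getLastD [] = r at hr hfr ⊢
  obtain ⟨r1, r2, -, r4⟩ := comb_far (hcl _ (hsL _ hr)) c' (hfar _ (hsL _ hr)).2
  obtain ⟨f1, f2, -, -⟩ := comb_far (hcl _ (hsL _ hf)) c' (hfar _ (hsL _ hf)).2
  have hlen : ∀ Z ∈ srt K' L, (pt K' Z).2.length = G Z ((ch K' Z).2 : ℤ) := fun Z h =>
    comb_pt_length (hcl _ (hsL _ h)) c' (hfar _ (hsL _ h)).2
  have hfst : ∀ Z, (pt K' Z).1 = col K' (ch K' Z).1 := fun Z => rfl
  have hend : ∀ Z ∈ srt K' L, col K' (ch K' Z).1 + G Z ((ch K' Z).2 : ℤ) ≤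
      col K' (ch K' r).1 + (vx K' (ch K' r).1).length := fun Z h => by
    obtain ⟨-, -, a3, -⟩ := comb_far (hcl _ (hsL _ h)) c' (hfar _ (hsL _ h)).2
    have := c'.end_mono (hfr Z h).2 r1
    omega
  have hc1 : ∀ Z ∈ srt K' L, col K' (ch K' f).1 ≤ col K' (ch K' Z).1 := fun Z h =>
    col_mono K' (hfr Z h).1
  have hc2 : ∀ Z ∈ srt K' L, col K' (ch K' Z).1 ≤ col K' (ch K' r).1 := fun Z h =>
    col_mono K' (hfr Z h).2
  have hsn : (srt K' L).Pairwise fun Z Z' => (ch K' Z).1 ≤ (ch K' Z').1 ∧ Z ≠ Z' := hsort.and hnd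
  have hW : ∀ Q ∈ (col K' (ch K' f).1, ([] : Str)) :: ((srt K' L).map (pt K') ++
      [(col K' (ch K' r).1, vx K' (ch K' r).1),
       (col K' (ch K' r).1 + (vx K' (ch K' r).1).length, [])]), Pt (wd K') Q := by
    intro Q hQ
    simp only [List.mem_cons, List.mem_append, List.mem_map, List.not_mem_nil, or_false] at hQ
    rcases hQ with rfl | ⟨Z, hZ, rfl⟩ | rfl | rfl
    · rfl
    · exact comb_pt_Pt (hcl _ (hsL _ hZ)) c' (hfar _ (hsL _ hZ)).2
    · exact c'.vx_eq r1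
    · rfl
  have hc : ((col K' (ch K' f).1, ([] : Str)) :: ((srt K' L).map (pt K') ++
      [(col K' (ch K' r).1, vx K' (ch K' r).1),
       (col K' (ch K' r).1 + (vx K' (ch K' r).1).length, [])])).Pairwise PtLe := by
    have h0 := hc1 r hr
    refine List.pairwise_cons.2 ⟨fun Q hQ => ?_, List.pairwise_append.2 ⟨?_, ?_, ?_⟩⟩
    · simp only [List.mem_cons, List.mem_append, List.mem_map, List.not_mem_nil, or_false] at hQ
      rcases hQ with ⟨Z, hZ, rfl⟩ | rfl | rfl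
      · have := hc1 Z hZ
        exact ⟨this, by simp only [hfst, List.length_nil]; omega⟩
      · exact ⟨h0, by simp only [List.length_nil]; omega⟩
      · exact ⟨by simp only; omega, by simp only [List.length_nil]; omega⟩
    · rw [List.pairwise_map]
      refine hsn.imp_of_mem fun {Z₁ Z₂} h₁ h₂ h => ⟨col_mono K' h.1, ?_⟩
      have := comb_key hF hK' hsub hfar (comb_mem_srt.1 h₁) (comb_mem_srt.1 h₂) h.2 h.1
        (hcl _ (hsL _ h₂)).per_pos (wd_periodic Z₂)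
      have h3 := (hcl _ (hsL _ h₂)).hgt_le_G ((ch K' Z₂).2 : ℤ)
      have h4 : per Z₂ < hgt Z₂ := (hfar _ (hsL _ h₂)).1
      rw [hlen _ h₁, hlen _ h₂, hfst, hfst]
      omega
    · simp [PtLe]
    · intro P hP Q hQ
      obtain ⟨Z, hZ, rfl⟩ := List.mem_map.1 hP
      have h1 := hend Z hZ
      have h2 := hc2 Z hZ
      simp only [List.mem_cons, List.not_mem_nil, or_false] at hQ
      rcases hQ with rfl | rfl
      · exact ⟨h2, by rw [hlen _ hZ, hfst]; exact h1⟩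
      · exact ⟨by rw [hfst]; simp only; omega, by rw [hlen _ hZ, hfst]; simpa using h1⟩
  refine ⟨?_, tour_arc _ _, ?_, ?_⟩
  · simpa using tour_wk hW hc
  · have h1 := tour_cost hc
    have h2 : col K' (ch K' r).1 + (vx K' (ch K' r).1).length ≤
        col K' (ch K' f).1 + (per K' + (L.map per).sum) := by
      by_cases e : r = f
      · subst e
        have : per r ≤ (L.map per).sum :=
          List.single_le_sum (fun _ _ => Nat.zero_le _) _ (List.mem_map_of_mem (hsL _ hr))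
        omega
      · have h3 := comb_add_le_sum per (hsL _ hr) (hsL _ hf) e
        have h4 : sg (wd K') ((col K' (ch K' f).1 + per K' : ℕ) : ℤ) (vx K' (ch K' f).1).length =
            sg (wd f) ((ch K' f).2 : ℤ) (vx K' (ch K' f).1).length := by
          rw [Nat.cast_add, sg_periodic (wd_periodic K')]
          exact (c'.vx_eq f1).symm.trans f2
        have h5 := c'.col_le_per (ch K' r).1
        have h6 := c'.end_le f1 r1
        have := overlap (hcl _ (hsL _ hr)).per_pos (hcl _ (hsL _ hf)).per_pos (wd_periodic r)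
          (wd_periodic f) ((c'.vx_eq r1).symm.trans r2) h4 (by omega) (by omega)
          (comb_not_same hF hsub (fun Z h => (hfar Z h).1) (comb_mem_srt.1 hr)
            (comb_mem_srt.1 hf) e)
        omega
    simp only [List.getLastD_eq_getLast?, List.getLast?_append, List.getLast?_cons_cons,
      List.getLast?_singleton, Option.some_or, Option.getD_some, List.length_nil] at h1
    omega
  · intro Z hZ
    rcases List.mem_cons.1 hZ with rfl | hZ
    · refine ⟨_, c'.vx_mem r1, ?_⟩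
      have := tour_reach (m := (vx Z (ch Z r).1).length) hW hc fun P' hP' => by
        rcases List.mem_cons.1 hP' with rfl | hP'
        · have := hc1 r hr
          simp only [List.length_nil]; omega
        · obtain ⟨Z', hZ', rfl⟩ := List.mem_map.1 hP'
          rw [hlen _ hZ', hfst]; exact hend _ hZ'
      simpa using this
    · obtain ⟨Z₂, h₂, d, hd, hG⟩ := hrep Z hZ
      refine ⟨_, (hcl Z hZ).sg_G_mem (((ch K' Z₂).2 : ℤ) + d), ?_⟩
      obtain ⟨s₁, s₂, hs⟩ := List.append_of_mem h₂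
      have hs₁ : ∀ Z₁ ∈ s₁, Z₁ ∈ srt K' L ∧ (ch K' Z₁).1 ≤ (ch K' Z₂).1 ∧ Z₁ ≠ Z₂ := by
        intro Z₁ h₁
        refine ⟨by rw [hs]; simp [h₁], ?_⟩
        rw [hs] at hsn
        exact (List.pairwise_append.1 hsn).2.2 Z₁ h₁ Z₂ (by simp)
      have hper : Periodic (wd Z₂) (per Z : ℤ) := fun i => by
        rw [hd, hd, add_right_comm, wd_periodic Z]
      have hm := (hcl Z hZ).hgt_le_G (((ch K' Z₂).2 : ℤ) + d)
      have hH : per Z < hgt Z := (hfar _ hZ).1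
      rw [hs, List.map_append, List.map_cons, List.append_assoc, List.cons_append] at hW hc ⊢
      have := tour_reach (m := G Z (((ch K' Z₂).2 : ℤ) + d)) hW hc fun P' hP' => by
        rcases List.mem_cons.1 hP' with rfl | hP'
        · have := hc1 Z₂ h₂
          simp only [List.length_nil, hfst]; omega
        · obtain ⟨Z₁, h₁, rfl⟩ := List.mem_map.1 hP'
          obtain ⟨a1, a2, a3⟩ := hs₁ Z₁ h₁
          have := comb_key hF hK' hsub hfar (comb_mem_srt.1 a1) (comb_mem_srt.1 h₂) a3 a2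
            (hcl Z hZ).per_pos hper
          rw [hlen _ a1, hfst, hfst]
          omega
      obtain ⟨-, b2, b3, -⟩ := comb_far (hcl _ (hsL _ h₂)) c' (hfar _ (hsL _ h₂)).2
      have e : (pt K' Z₂).2.take (G Z (((ch K' Z₂).2 : ℤ) + d)) =
          sg (wd Z) (((ch K' Z₂).2 : ℤ) + d) (G Z (((ch K' Z₂).2 : ℤ) + d)) := by
        have h5 := hG ((ch K' Z₂).2 : ℤ)
        simp only [pt]
        rw [List.take_take, min_eq_left h5, b2, take_sg_of_le (by omega)]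
        exact sg_congr (fun i => by rw [hd]; congr 1; ring) _
      rw [e] at this
      exact this

end Crest.Agent.R287
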