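/-
R287/Connect: phase 2 connects every circuit to `[]` at total cost at most the cost of the family.
TASK (about 300 lines).
-/
import Crest.Agent.R287.Comb

set_option autoImplicit false

namespace Crest.Agent.R287

open List Function

variable {𝒦 R : List Walk} {E : List Arc}

/-- Invariant of phase 2 (`R` = circuits not yet connected, `E` = arcs added so far). -/
structure CInv (𝒦 R : List Walk) (E : List Arc) : Prop where
  sub : R <+ 𝒦
  bal : Balanced E
  arc : ∀ a ∈ E, IsArc a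
  cost : cost E + (R.map per).sum ≤ (𝒦.map per).sum
  reach : ∀ K ∈ 𝒦, K ∉ R → ∃ v ∈ verts K, Reach (𝒦.flatten ++ E) [] v
  far : ∀ Z ∈ R, High Z → ∀ K' ∈ 𝒦, fars Z K' ≠ [] → K' ∈ R

/-- What one round `z = (connected circuits, new closed walk)` has to satisfy. -/
structure ActOK (𝒦 R : List Walk) (E : List Arc) (z : List Walk × Walk) : Prop where
  sub : z.1 ⊆ R
  nodup : z.1.Nodup
  bal : Balanced z.2
  arc : ∀ a ∈ z.2, IsArc a
  cost : cost z.2 ≤ (z.1.map per).sum
  reach : ∀ K ∈ z.1, ∃ v ∈ verts K, Reach (𝒦.flatten ++ (E ++ z.2)) [] v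
  far : ∀ Z ∈ R, Z ∉ z.1 → High Z → ∀ K' ∈ z.1, fars Z K' = []

private theorem mem_candsA {z : List Walk × Walk} : z ∈ candsA 𝒦 R ↔
    ∃ K ∈ R, ∃ x : ℕ, x < per K ∧ ∃ i ≤ per K, ∃ K' ∈ 𝒦, K' ∉ R ∧ ∃ v ∈ verts K',
      Rect K (x : ℤ) i v ∧ ([K], loop K (x : ℤ) i v) = z := by
  simp only [candsA, List.mem_flatMap, List.mem_map, List.mem_filter, List.mem_range,
    decide_eq_true_eq, Nat.lt_succ_iff]
  constructor
  · rintro ⟨K, hK, x, hx, i, hi, v, ⟨⟨K', ⟨h1, h2⟩, h3⟩, h4⟩, h5⟩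
    exact ⟨K, hK, x, hx, i, hi, K', h1, h2, v, h3, h4, h5⟩
  · rintro ⟨K, hK, x, hx, i, hi, K', h1, h2, v, h3, h4, h5⟩
    exact ⟨K, hK, x, hx, i, hi, v, ⟨⟨K', ⟨h1, h2⟩, h3⟩, h4⟩, h5⟩

private theorem mem_candsB {z : List Walk × Walk} : z ∈ candsB R ↔
    ∃ K ∈ R, ∃ x : ℕ, x < per K ∧ ∃ K' ∈ R, ∃ a ∈ K',
      Entry K (x : ℤ) a ∧ ([K, K'], tri a.2) = z := by
  simp only [candsB, List.mem_flatMap, List.mem_map, List.mem_filter, List.mem_range,
    decide_eq_true_eq, and_assoc]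

private theorem headD_cases {α : Type} (l : List α) (d : α) :
    (l = [] ∧ l.headD d = d) ∨ l.headD d ∈ l := by
  cases l <;> simp

private theorem act_cases (𝒦 R : List Walk) :
    (∃ K' ∈ R, (¬ High K' ∨ leaves R K' ≠ []) ∧
      (∀ K ∈ R, (¬ High K ∨ leaves R K ≠ []) → per K' ≤ per K) ∧
      act 𝒦 R = if leaves R K' = [] then ([K'], tri (low K'))
        else (K' :: leaves R K', comb K' (leaves R K'))) ∨
    ((∀ K ∈ R, High K ∧ leaves R K = []) ∧
      act 𝒦 R = (candsA 𝒦 R ++ candsB R).headD ([], [])) := by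
  unfold act
  cases e : (R.filter fun K => decide (¬ High K ∨ leaves R K ≠ [])).argmin per with
  | none =>
    refine Or.inr ⟨fun K hK => ?_, rfl⟩
    have := List.filter_eq_nil_iff.1 (List.argmin_eq_none.1 e) K hK
    simpa using this
  | some K' =>
    have h := List.mem_filter.1 (List.argmin_mem e)
    refine Or.inl ⟨K', h.1, of_decide_eq_true h.2, fun K hK h' => ?_, rfl⟩
    exact List.le_of_mem_argmin (List.mem_filter.2 ⟨hK, decide_eq_true h'⟩) e

/-- Recipe.  Case `argmin = some K'` (`List.argmin_mem`, `List.le_of_mem_argmin`).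
* `leaves R K' = []`: then `¬ High K'`, so `cost (tri (low K')) = hgt K' ≤ per K'`; `low_mem`,
  `tri_reach`; `far` is `leaves R K' = []` (`mem_leaves`).
* otherwise `comb_spec` with `L = leaves R K' <+ R <+ 𝒦`; `K' ∉ L` by `far_per_lt`; `far`: for `K'`
  by `mem_leaves`; a leaf `K''` has `per K'' < per K'`, so by minimality `leaves R K'' = []`.
Case `argmin = none`: every `K ∈ R` has `leaves R K = []`, which gives `far`; the result is
`([], [])` or a member of `candsA` or `candsB`.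
* `candsA`: `loop_spec`; `v` is a vertex of some `K' ∈ 𝒦`, `K' ∉ R`, so `CInv.reach` and `Cl.reach`
  give `Reach [] v`; all `K ∈ R` are `High` in this case; `Cl.env_mem`.
* `candsB`: `K ≠ K'` (`entry_not_mem`), `entry_lt`, `tri_cost`; `a.2 ∈ verts K'` (`Cl.snd_mem`) and
  `a.2.take (G K x) = sg (wd K) x (G K x) ∈ verts K` (`take_sg_of_le`, `Cl.sg_G_mem`). -/
theorem act_ok (hF : Fam 𝒦) (hI : CInv 𝒦 R E) : ActOK 𝒦 R E (act 𝒦 R) := by
  have hcl : ∀ K ∈ R, Cl K := fun K hK => hF.cl K (hI.sub.subset hK)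
  have hm : ∀ {w : Walk} {u v : Str}, Reach w u v → Reach (𝒦.flatten ++ (E ++ w)) u v :=
    fun h => h.mono fun a ha => by simp [ha]
  rcases act_cases 𝒦 R with ⟨K', hK', h1, hmin, e⟩ | ⟨hall, e⟩
  · rw [e]
    split_ifs with hl
    · have hH : ¬ High K' := h1.resolve_right (not_not.2 hl)
      refine ⟨by simpa using hK', by simp, (tri_wk _).balanced, tri_arc _, ?_, ?_, ?_⟩
      · simpa [tri_cost, High, hgt] using hH
      · intro K hK
        rw [List.mem_singleton.1 hK]
        refine ⟨_, low_mem (hcl K' hK'), hm ?_⟩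
        simpa using tri_reach (low K') (low K').length
      · intro Z hZ _ hHZ K hK
        rw [List.mem_singleton.1 hK]
        by_contra hc
        exact List.ne_nil_of_mem (mem_leaves.2 ⟨hZ, hHZ, hc⟩) hl
    · have hL : leaves R K' <+ 𝒦 := List.filter_sublist.trans hI.sub
      have hlt : ∀ Z ∈ leaves R K', per Z < per K' := fun Z hZ =>
        have h := mem_leaves.1 hZ
        far_per_lt (hcl Z h.1) (hcl K' hK') h.2.1 h.2.2
      obtain ⟨c1, c2, c3, c4⟩ := comb_spec hF (hI.sub.subset hK') hL hl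
        fun Z hZ => (mem_leaves.1 hZ).2
      refine ⟨?_, ?_, c1.balanced, c2, by simpa using c3, ?_, ?_⟩
      · exact List.cons_subset.2 ⟨hK', fun Z hZ => (mem_leaves.1 hZ).1⟩
      · exact List.nodup_cons.2 ⟨fun h => lt_irrefl _ (hlt _ h), hF.nodup.sublist hL⟩
      · intro K hK
        obtain ⟨v, hv, hr⟩ := c4 K hK
        exact ⟨v, hv, hm hr⟩
      · intro Z hZ hZ' hHZ K hK
        by_contra hc
        have h2 : Z ∈ leaves R K := mem_leaves.2 ⟨hZ, hHZ, hc⟩
        rcases List.mem_cons.1 hK with rfl | hK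
        · exact hZ' (List.mem_cons_of_mem _ h2)
        · exact absurd (hmin K (mem_leaves.1 hK).1 (Or.inr (List.ne_nil_of_mem h2)))
            (not_le.2 (hlt K hK))
  · have hfar : ∀ Z ∈ R, High Z → ∀ K ∈ R, fars Z K = [] := fun Z hZ hHZ K hK => by
      by_contra hc
      exact List.ne_nil_of_mem (mem_leaves.2 ⟨hZ, hHZ, hc⟩) (hall K hK).2
    rw [e]
    rcases headD_cases (candsA 𝒦 R ++ candsB R) ([], []) with ⟨-, e'⟩ | hz
    · rw [e']
      exact ⟨by simp, by simp, balanced_nil, by simp, by simp, by simp, by simp⟩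
    generalize (candsA 𝒦 R ++ candsB R).headD ([], []) = z at hz
    rcases List.mem_append.1 hz with hz | hz
    · obtain ⟨K, hK, x, -, i, hi, K', hK', hK'R, v, hv, hr, rfl⟩ := mem_candsA.1 hz
      obtain ⟨l1, l2, l3⟩ := loop_spec (hcl K hK) (hall K hK).1 hi hr
      refine ⟨by simpa using hK, by simp, l1.balanced, loop_arc _ _ _ _, by simp [l2], ?_, ?_⟩
      · intro K₁ hK₁
        rw [List.mem_singleton.1 hK₁]
        obtain ⟨u, hu, hur⟩ := hI.reach K' hK' hK'R
        refine ⟨_, (hcl K hK).env_mem x, Reach.trans (Reach.trans (hur.mono ?_)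
          (((hF.cl K' hK').reach hu hv).mono ?_)) (hm l3)⟩
        · rw [← List.append_assoc]; exact List.subset_append_left _ _
        · exact fun a ha => List.mem_append_left _ (List.mem_flatten.2 ⟨K', hK', ha⟩)
      · intro Z hZ _ hHZ K₁ hK₁
        rw [List.mem_singleton.1 hK₁]
        exact hfar Z hZ hHZ K hK
    · obtain ⟨K, hK, x, -, K', hK', a, ha, he, rfl⟩ := mem_candsB.1 hz
      have hne : K ≠ K' := fun h => entry_not_mem (hcl K hK) (hall K hK).1 he (h ▸ ha)
      refine ⟨by simp [hK, hK'], by simp [hne], (tri_wk _).balanced, tri_arc _, ?_, ?_, ?_⟩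
      · simpa [tri_cost] using (entry_lt (hcl K hK) (hcl K' hK') ha he).le
      · intro K₁ hK₁
        rcases List.mem_pair.1 hK₁ with rfl | rfl
        · refine ⟨_, (hcl K₁ hK).sg_G_mem x, hm ?_⟩
          have := tri_reach a.2 (G K₁ x)
          rw [← take_sg_of_le he.2.2.1, ← he.2.1]
          exact this
        · refine ⟨_, (hcl K₁ hK').snd_mem ha, hm ?_⟩
          simpa using tri_reach a.2 a.2.length
      · intro Z hZ _ hHZ K₁ hK₁
        rcases List.mem_pair.1 hK₁ with rfl | rfl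
        · exact hfar Z hZ hHZ _ hK
        · exact hfar Z hZ hHZ _ hK'

/-- Recipe.  If `argmin = some _` the list is visibly nonempty, and so is the first component of
every member of `candsA ++ candsB`.  So assume `argmin = none` (all `K ∈ R` are `High` with no
leaves; by `CInv.far` no `Z ∈ R` has a far entry) and `candsA = candsB = []`.
Every `K ∈ R` is `Clean`: an entry `a ∈ K' ∈ 𝒦` at `x < per K` gives a member of `candsB` if
`K' ∈ R`; if `K' ∉ R`, write `a = K'[t]`; it is not far, so `Rect K x 0 a.2`: a member of `candsA`.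
Take `K ∈ R` of least `hgt` and `a` from `Cl.exists_G_eq_hgt`; `¬ Bump 𝒦 K a` (as `bumps 𝒦 = []`)
gives `i, K', v` with `Rect K a i v`, and `K' ∉ R` by minimality: a member of `candsA`. -/
theorem act_ne (hF : Fam 𝒦) (hb : bumps 𝒦 = []) (hI : CInv 𝒦 R E) (hR : R ≠ []) :
    (act 𝒦 R).1 ≠ [] := by
  have hcl : ∀ K ∈ R, Cl K := fun K hK => hF.cl K (hI.sub.subset hK)
  rcases act_cases 𝒦 R with ⟨K', -, -, -, e⟩ | ⟨hall, e⟩
  · rw [e]; split_ifs <;> simp
  rw [e]
  rcases headD_cases (candsA 𝒦 R ++ candsB R) ([], []) with ⟨e', -⟩ | hz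
  swap
  · generalize (candsA 𝒦 R ++ candsB R).headD ([], []) = z at hz
    rcases List.mem_append.1 hz with hz | hz
    · obtain ⟨K, -, x, -, i, -, K', -, -, v, -, -, rfl⟩ := mem_candsA.1 hz
      simp
    · obtain ⟨K, -, x, -, K', -, a, -, -, rfl⟩ := mem_candsB.1 hz
      simp
  exfalso
  obtain ⟨eA, eB⟩ := List.append_eq_nil_iff.1 e'
  have hA : ∀ K ∈ R, ∀ x < per K, ∀ i ≤ per K, ∀ K' ∈ 𝒦, K' ∉ R → ∀ v ∈ verts K',
      ¬ Rect K ((x : ℕ) : ℤ) i v := fun K hK x hx i hi K' hK' hn v hv hr =>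
    List.ne_nil_of_mem (mem_candsA.2 ⟨K, hK, x, hx, i, hi, K', hK', hn, v, hv, hr, rfl⟩) eA
  have hclean : ∀ K ∈ R, Clean 𝒦 K := by
    intro K hK
    refine ⟨(hall K hK).1, ?_⟩
    rintro ⟨x, hx, a, ha, he⟩
    rw [List.mem_range] at hx
    obtain ⟨K', hK', ha⟩ := List.mem_flatten.1 ha
    by_cases hK'R : K' ∈ R
    · exact List.ne_nil_of_mem (mem_candsB.2 ⟨K, hK, x, hx, K', hK'R, a, ha, he, rfl⟩) eB
    · obtain ⟨t, ht, rfl⟩ := List.getElem_of_mem ha
      have hg : K'.getD t ([], []) = K'[t] := List.getD_eq_getElem _ _ ht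
      refine hA K hK x hx 0 (Nat.zero_le _) K' hK' hK'R _ ((hF.cl K' hK').snd_mem ha)
        ⟨by simpa using he.2.1, he.2.2.1, ?_⟩
      by_contra hc
      refine hK'R (hI.far K hK (hall K hK).1 K' hK' (List.ne_nil_of_mem
        (mem_fars.2 ⟨ht, hx, hg ▸ he, ?_⟩)))
      rw [vx, hg]; omega
  cases em : R.argmin hgt with
  | none => exact hR (List.argmin_eq_none.1 em)
  | some K =>
    have hK : K ∈ R := List.argmin_mem em
    obtain ⟨a, ha, hG⟩ := (hcl K hK).exists_G_eq_hgt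
    have hnb : ¬ Bump 𝒦 K (a : ℤ) := fun h => by
      refine List.ne_nil_of_mem (a := sg (wd K) (a : ℤ) (hgt K - per K)) ?_ hb
      simp only [bumps, List.mem_flatMap, List.mem_map, List.mem_filter, List.mem_range,
        decide_eq_true_eq]
      exact ⟨K, hI.sub.subset hK, a, ⟨ha, h⟩, rfl⟩
    refine hnb ⟨hclean K hK, hG, ?_⟩
    rintro ⟨i, hi, K', hK', -, ⟨v, hv, hr⟩, hn⟩
    refine hA K hK a ha i (Nat.lt_succ_iff.1 (List.mem_range.1 hi)) K' hK' (fun h => hn ?_) v hv hr
    exact ⟨hclean K' h, List.le_of_mem_argmin h em⟩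

/-- From `act_ok`.  For `cost`: `R` has no duplicates (`Fam.nodup`), so
`R ~ z.1 ++ R.filter (· ∉ z.1)`. -/
theorem cinv_step (hF : Fam 𝒦) (hI : CInv 𝒦 R E) :
    CInv 𝒦 (cstep 𝒦 (R, E)).1 (cstep 𝒦 (R, E)).2 := by
  have h := act_ok hF hI
  have hRn : R.Nodup := hF.nodup.sublist hI.sub
  simp only [cstep]
  generalize act 𝒦 R = z at h
  refine ⟨List.filter_sublist.trans hI.sub, hI.bal.append h.bal, fun a ha => ?_, ?_,
    fun K hK hn => ?_, fun Z hZ hH K' hK' hf => ?_⟩
  · rcases List.mem_append.1 ha with ha | ha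
    exacts [hI.arc a ha, h.arc a ha]
  · have hp : R.Perm (z.1 ++ R.filter fun K => decide (K ∉ z.1)) := by
      refine (List.perm_ext_iff_of_nodup hRn (List.nodup_append.2
        ⟨h.nodup, hRn.filter _, fun a ha b hb e => ?_⟩)).2 fun K => ?_
      · subst e
        simpa [ha] using (List.mem_filter.1 hb).2
      · simp only [List.mem_append, List.mem_filter, decide_eq_true_eq]
        have := @h.sub K
        tauto
    have h1 := (hp.map per).sum_eq
    rw [List.map_append, List.sum_append] at h1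
    have h2 := hI.cost
    have h3 := h.cost
    rw [cost_append]
    omega
  · by_cases hKR : K ∈ R
    · refine h.reach K ?_
      by_contra hc
      exact hn (List.mem_filter.2 ⟨hKR, by simpa using hc⟩)
    · obtain ⟨v, hv, hr⟩ := hI.reach K hK hKR
      refine ⟨v, hv, hr.mono ?_⟩
      rw [← List.append_assoc]; exact List.subset_append_left _ _
  · obtain ⟨hZ1, hZ2⟩ := List.mem_filter.1 hZ
    refine List.mem_filter.2 ⟨hI.far Z hZ1 hH K' hK' hf, ?_⟩
    simp only [decide_eq_true_eq] at hZ2 ⊢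
    exact fun hc => hf (h.far Z hZ1 hZ2 hH K' hc)

/-- Iterate: the invariant holds from `(𝒦, [])` on, `R` loses a member in each round until it is
empty (`act_ne`), so it is empty after `|𝒦|` rounds.  `cost_flatten`, `Cl.reach`, `Cl.snd_mem`. -/
theorem extra_spec (hF : Fam 𝒦) (hb : bumps 𝒦 = []) :
    Balanced (extra 𝒦) ∧ (∀ a ∈ extra 𝒦, IsArc a) ∧ cost (extra 𝒦) ≤ cost 𝒦.flatten ∧
      ∀ a ∈ 𝒦.flatten, Reach (𝒦.flatten ++ extra 𝒦) [] a.2 := by
  have key : ∀ n, CInv 𝒦 ((cstep 𝒦)^[n] (𝒦, [])).1 ((cstep 𝒦)^[n] (𝒦, [])).2 ∧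
      ((cstep 𝒦)^[n] (𝒦, [])).1.length ≤ 𝒦.length - n := by
    intro n
    induction n with
    | zero =>
      exact ⟨⟨List.Sublist.refl _, balanced_nil, by simp, by simp, fun K hK hn => absurd hK hn,
        fun _ _ _ K' hK' _ => hK'⟩, le_rfl⟩
    | succ n ih =>
      rw [Function.iterate_succ_apply']
      generalize (cstep 𝒦)^[n] (𝒦, []) = s at ih
      obtain ⟨R, E⟩ := s
      refine ⟨cinv_step hF ih.1, ?_⟩
      have h2 : R.length ≤ 𝒦.length - n := ih.2
      simp only [cstep]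
      by_cases hR : R = []
      · subst hR; simp
      · obtain ⟨K, hK⟩ := List.exists_mem_of_ne_nil _ (act_ne hF hb ih.1 hR)
        have : (R.filter fun K => decide (K ∉ (act 𝒦 R).1)).length < R.length :=
          List.length_filter_lt_length_iff_exists.2 ⟨K, (act_ok hF ih.1).sub hK, by simpa using hK⟩
        omega
  obtain ⟨hI, hl⟩ := key 𝒦.length
  rw [Nat.sub_self, Nat.le_zero, List.length_eq_zero_iff] at hl
  rw [hl] at hI
  refine ⟨hI.bal, hI.arc, ?_, fun a ha => ?_⟩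
  · rw [cost_flatten]; simpa [extra] using hI.cost
  · obtain ⟨K, hK, haK⟩ := List.mem_flatten.1 ha
    obtain ⟨v, hv, hr⟩ := hI.reach K hK (by simp)
    refine Reach.trans hr (((hF.cl K hK).reach hv ((hF.cl K hK).snd_mem haK)).mono ?_)
    exact fun b hb => List.mem_append_left _ (List.mem_flatten.2 ⟨K, hK, hb⟩)

end Crest.Agent.R287
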