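/-
R287/Euler: `circuits A` splits a balanced multiset of arcs into vertex-disjoint closed walks, and
`final A` contains every vertex reachable from `[]`.   TASK (about 250 lines).
-/
import Crest.Agent.R287.Walk

set_option autoImplicit false

namespace Crest.Agent.R287

open List

theorem eu_rots_perm {P P' : Walk} (h : P' ∈ rots P) : P'.Perm P := by
  unfold rots at h
  split_ifs at h
  · obtain ⟨i, -, rfl⟩ := List.mem_map.1 h
    exact List.rotate_perm _ _
  · rw [List.mem_singleton.1 h]

theorem eu_mem_merges {L N : List Walk} : N ∈ merges L ↔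
    ∃ P ∈ L, ∃ Q ∈ L.erase P, ∃ P' ∈ rots P, ∃ Q' ∈ rots Q, tgt P' = src Q' ∧
      N = (P' ++ Q') :: (L.erase P).erase Q := by
  simp only [merges, List.mem_flatMap, List.mem_map, List.mem_filter, decide_eq_true_eq]
  constructor
  · rintro ⟨P, hP, Q, hQ, P', hP', Q', ⟨hQ', e⟩, rfl⟩
    exact ⟨P, hP, Q, hQ, P', hP', Q', hQ', e, rfl⟩
  · rintro ⟨P, hP, Q, hQ, P', hP', Q', hQ', e, rfl⟩
    exact ⟨P, hP, Q, hQ, P', hP', Q', ⟨hQ', e⟩, rfl⟩

/-- Shape of a merge.  Recipe: unfold `merges`, `mem_flatMap`, `mem_map`; members of `rots P` are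
permutations of `P` (`List.rotate_perm`); `List.perm_cons_erase` twice. -/
theorem mem_merges_perm {L N : List Walk} (h : N ∈ merges L) :
    ∃ P Q P' Q' rest, L.Perm (P :: Q :: rest) ∧ P'.Perm P ∧ Q'.Perm Q ∧
      N = (P' ++ Q') :: rest := by
  obtain ⟨P, hP, Q, hQ, P', hP', Q', hQ', -, rfl⟩ := eu_mem_merges.1 h
  exact ⟨P, Q, P', Q', _, (List.perm_cons_erase hP).trans ((List.perm_cons_erase hQ).cons P),
    eu_rots_perm hP', eu_rots_perm hQ', rfl⟩

theorem eu_step_cases (L : List Walk) :
    (merges L = [] ∧ mergeStep L = L) ∨ mergeStep L ∈ merges L := by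
  unfold mergeStep
  cases merges L with
  | nil => exact Or.inl ⟨rfl, rfl⟩
  | cons N l => exact Or.inr (by simp)

theorem eu_step_flatten (L : List Walk) : (mergeStep L).flatten.Perm L.flatten := by
  rcases eu_step_cases L with ⟨-, h⟩ | h
  · rw [h]
  · obtain ⟨P, Q, P', Q', rest, hL, hP, hQ, e⟩ := mem_merges_perm h
    rw [e]
    refine List.Perm.trans ?_ hL.flatten.symm
    simp only [List.flatten_cons, List.append_assoc]
    exact hP.append (hQ.append_right _)

theorem eu_iter_flatten (k : ℕ) (L : List Walk) : (mergeStep^[k] L).flatten.Perm L.flatten := by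
  induction k with
  | zero => exact List.Perm.refl _
  | succ k ih => rw [Function.iterate_succ_apply']; exact (eu_step_flatten _).trans ih

/-- `mergeStep L` is `L` (if `merges L = []`) or a member of `merges L`; each step keeps
`flatten` up to permutation (`List.Perm.flatten`). -/
theorem circuits_flatten_perm (A : List Arc) : (circuits A).flatten.Perm A := by
  refine (eu_iter_flatten _ _).trans ?_
  induction A with
  | nil => exact List.Perm.refl _
  | cons a A ih => simpa using ih

/-- A nonempty walk. -/
def EuGood (P : Walk) : Prop := P ≠ [] ∧ Wk (src P) P (tgt P)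

theorem eu_good_of_wk {u v : Str} {P : Walk} (h : Wk u P v) (hP : P ≠ []) : EuGood P :=
  ⟨hP, by rw [h.src_eq hP, h.tgt_eq hP]; exact h⟩

/-- A rotation of a closed walk is a closed walk. -/
theorem eu_wk_rotate {u : Str} {l₁ l₂ : Walk} (h : Wk u (l₁ ++ l₂) u) :
    ∃ v, Wk u l₁ v ∧ Wk v (l₂ ++ l₁) v := by
  obtain ⟨v, h1, h2⟩ := Wk_append_iff.1 h
  exact ⟨v, h1, h2.append h1⟩

theorem eu_good_rot {P P' : Walk} (hP : EuGood P) (h : P' ∈ rots P) : EuGood P' := by
  have hne : P' ≠ [] := fun e => hP.1 (by simpa [e] using (eu_rots_perm h).symm)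
  unfold rots at h
  split_ifs at h with hc
  · obtain ⟨i, hi, rfl⟩ := List.mem_map.1 h
    have hi' : i ≤ P.length := (List.mem_range.1 hi).le
    have hw := hP.2
    rw [hc] at hw
    have hw' : Wk (src P) (P.take i ++ P.drop i) (src P) := by
      rw [List.take_append_drop]; exact hw
    obtain ⟨v, -, hv⟩ := eu_wk_rotate hw'
    rw [← List.rotate_eq_drop_append_take hi'] at hv
    exact eu_good_of_wk hv hne
  · rw [List.mem_singleton.1 h]; exact hP

theorem eu_self_mem_rots {P : Walk} (hP : P ≠ []) : P ∈ rots P := by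
  unfold rots
  split_ifs
  · exact List.mem_map.2 ⟨0, List.mem_range.2 (List.length_pos_iff.2 hP), List.rotate_zero _⟩
  · simp

theorem eu_good_step {L : List Walk} (hL : ∀ P ∈ L, EuGood P) : ∀ P ∈ mergeStep L, EuGood P := by
  rcases eu_step_cases L with ⟨-, h⟩ | h
  · rw [h]; exact hL
  · obtain ⟨P, hP, Q, hQ, P', hP', Q', hQ', e, hN⟩ := eu_mem_merges.1 h
    rw [hN]
    intro R hR
    rcases List.mem_cons.1 hR with rfl | hR
    · have g1 := eu_good_rot (hL P hP) hP'
      have g2 := eu_good_rot (hL Q (List.mem_of_mem_erase hQ)) hQ'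
      have w2 := g2.2
      rw [← e] at w2
      exact eu_good_of_wk (g1.2.append w2) (by simp [g1.1])
    · exact hL R (List.mem_of_mem_erase (List.mem_of_mem_erase hR))

theorem eu_good_iter (k : ℕ) {L : List Walk} (hL : ∀ P ∈ L, EuGood P) :
    ∀ P ∈ mergeStep^[k] L, EuGood P := by
  induction k with
  | zero => exact hL
  | succ k ih => rw [Function.iterate_succ_apply']; exact eu_good_step ih

theorem eu_iter_length (k : ℕ) (L : List Walk) :
    merges (mergeStep^[k] L) = [] ∨ (mergeStep^[k] L).length + k = L.length := by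
  induction k with
  | zero => exact Or.inr rfl
  | succ k ih =>
    rw [Function.iterate_succ_apply']
    rcases eu_step_cases (mergeStep^[k] L) with ⟨h1, h2⟩ | h
    · rw [h2]; exact Or.inl h1
    · rcases ih with ih | ih
      · rw [ih] at h; simp at h
      · obtain ⟨P, Q, P', Q', rest, hL, -, -, e⟩ := mem_merges_perm h
        have := hL.length_eq
        rw [e]
        simp only [List.length_cons] at this ⊢
        exact Or.inr (by omega)

theorem eu_merges_circuits (A : List Arc) : merges (circuits A) = [] := by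
  rcases eu_iter_length A.length (A.map fun a => [a]) with h | h
  · exact h
  · have : circuits A = [] := by
      rw [← List.length_eq_zero_iff]
      unfold circuits
      simp only [List.length_map] at h
      omega
    rw [this]; rfl

theorem eu_good_circuits (A : List Arc) : ∀ P ∈ circuits A, EuGood P := by
  refine eu_good_iter _ fun P hP => ?_
  obtain ⟨a, -, rfl⟩ := List.mem_map.1 hP
  exact eu_good_of_wk (u := a.1) (v := a.2) ⟨rfl, rfl⟩ (by simp)

theorem eu_ends_perm {L : List Walk} (hL : ∀ P ∈ L, EuGood P) :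
    (L.map tgt ++ L.flatten.map Prod.fst).Perm (L.map src ++ L.flatten.map Prod.snd) := by
  induction L with
  | nil => exact List.Perm.refl _
  | cons P L ih =>
    have h1 := (hL P (by simp)).2.perm
    have h2 := ih fun Q hQ => hL Q (by simp [hQ])
    rw [List.perm_iff_count] at h1 h2 ⊢
    intro v
    have e1 := h1 v
    have e2 := h2 v
    simp only [List.map_cons, List.flatten_cons, List.map_append, List.count_append,
      List.count_cons, List.cons_append] at e1 e2 ⊢
    omega

theorem eu_closed {L : List Walk} (hL : ∀ P ∈ L, EuGood P) (hB : Balanced L.flatten)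
    (hm : merges L = []) {P : Walk} (hP : P ∈ L) : tgt P = src P := by
  by_contra hne
  have h1 : (L.map tgt).Perm (L.map src) :=
    (List.perm_append_right_iff _).1
      ((eu_ends_perm hL).trans ((List.Perm.refl _).append hB.symm))
  obtain ⟨Q, hQ, e⟩ := List.mem_map.1 (h1.subset (List.mem_map_of_mem hP))
  have hQP : Q ≠ P := fun h => hne (by rw [← e, h])
  have : (P ++ Q) :: (L.erase P).erase Q ∈ merges L :=
    eu_mem_merges.2 ⟨P, hP, Q, (List.mem_erase_of_ne hQP).2 hQ, P, eu_self_mem_rots (hL P hP).1,
      Q, eu_self_mem_rots (hL Q hQ).1, e.symm, rfl⟩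
  rw [hm] at this
  simp at this

/-- A closed walk can be rotated to start at any of its vertices. -/
theorem eu_rot_at {P : Walk} (hP : EuGood P) (hc : tgt P = src P) {v : Str} (hv : v ∈ verts P) :
    ∃ P' ∈ rots P, src P' = v ∧ tgt P' = v := by
  obtain ⟨a, ha, rfl⟩ := mem_verts.1 hv
  have hw := hP.2
  rw [hc] at hw
  obtain ⟨l₁, l₂, e, h1, h2⟩ := hw.split ha
  have hw' : Wk a.1 ((a :: l₂) ++ l₁) a.1 := Wk.append (v := src P) ⟨rfl, h2⟩ h1
  refine ⟨(a :: l₂) ++ l₁, ?_, hw'.src_eq (by simp), hw'.tgt_eq (by simp)⟩
  unfold rots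
  rw [if_pos hc]
  refine List.mem_map.2 ⟨l₁.length, List.mem_range.2 (by rw [e]; simp), ?_⟩
  rw [e, List.rotate_append_length_eq]

/-- Recipe.  Invariant of `mergeStep`: every `P ∈ L` is nonempty with `Wk (src P) P (tgt P)`, and
`L.flatten ~ A` (a rotation of a closed walk is a closed walk: `P.rotate i = P.drop i ++ P.take i`
for `i ≤ |P|`, split with `Wk_append_iff`).  A merge lowers `L.length` by one and leaves a nonempty
list, so after `|A|` steps `merges L = []`.  If `merges L = []`:
(1) all walks are closed: `Wk.perm` summed over `L` together with `Balanced A` gives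
`L.map tgt ~ L.map src`; an open `P` has `tgt P = src Q` for some `Q ∈ L`, `Q ≠ P`, so
`Q ∈ L.erase P`, and `P ∈ rots P`, `Q ∈ rots Q` (`Q.rotate 0 = Q`) give a merge;
(2) if `P` and `Q ∈ L.erase P` share a vertex `v`, rotate both to start at `v` (`Wk.split`): a merge.
For `Pairwise` use `List.pairwise_iff_forall_sublist` (`[P, Q] <+ L → Q ∈ L.erase P`). -/
theorem circuits_fam {A : List Arc} (hB : Balanced A) (hA : ∀ a ∈ A, IsArc a) :
    Fam (circuits A) := by
  have hg := eu_good_circuits A
  have hp := circuits_flatten_perm A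
  have hm := eu_merges_circuits A
  have hc : ∀ P ∈ circuits A, tgt P = src P := fun P hP =>
    eu_closed hg (hB.of_perm hp.symm) hm hP
  refine ⟨fun K hK => ⟨(hg K hK).1, ?_, fun a ha =>
    hA a (hp.subset (List.mem_flatten.2 ⟨K, hK, ha⟩))⟩, ?_⟩
  · have := (hg K hK).2
    rwa [hc K hK] at this
  · rw [List.pairwise_iff_forall_sublist]
    intro P Q hs v hvP hvQ
    have hP : P ∈ circuits A := hs.subset (by simp)
    have hQ : Q ∈ circuits A := hs.subset (by simp)
    have hQ' : Q ∈ (circuits A).erase P := (hs.erase P).subset (by simp)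
    obtain ⟨P', hP', -, e1⟩ := eu_rot_at (hg P hP) (hc P hP) hvP
    obtain ⟨Q', hQ'', e2, -⟩ := eu_rot_at (hg Q hQ) (hc Q hQ) hvQ
    have : (P' ++ Q') :: ((circuits A).erase P).erase Q ∈ merges (circuits A) :=
      eu_mem_merges.2 ⟨P, hP, Q, hQ', P', hP', Q', hQ'', e1.trans e2.symm, rfl⟩
    rw [hm] at this
    simp at this

/-- `length_letters`, `cost_perm` (rotation), and `cost K ≤ cost (circuits A).flatten = cost A`. -/
theorem final_length (A : List Arc) : (final A).length ≤ cost A := by
  unfold final
  cases e : (circuits A).find? fun K => decide ([] ∈ verts K) with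
  | none => simp
  | some K =>
    have hK : K ∈ circuits A := List.mem_of_find?_eq_some e
    simp only [Option.elim_some, length_letters]
    rw [cost_perm (List.rotate_perm _ _), ← cost_perm (circuits_flatten_perm A)]
    exact (List.sublist_flatten_of_mem hK).countP_le

/-- Recipe.  `v = []` is trivial.  Otherwise some arc leaves `[]`, so `find?` returns a circuit `Ω`
with `[] ∈ verts Ω`; by induction on `Reach` every reachable vertex is in `verts Ω`
(`Fam.mem_of_fst`, `Cl.snd_mem`); the rotation of `Ω` at `idxOf []` is a walk from `[]` to `[]`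
with the same arcs, and `Wk.fst_infix` finishes. -/
theorem final_infix {A : List Arc} (hB : Balanced A) (hA : ∀ a ∈ A, IsArc a) {v : Str}
    (h : Reach A [] v) : v <:+: final A := by
  by_cases hv : v = []
  · rw [hv]; exact List.nil_infix
  have hF := circuits_fam hB hA
  have hp := circuits_flatten_perm A
  obtain ⟨w, hw⟩ : ∃ w, (([] : Str), w) ∈ A := by
    rcases Relation.ReflTransGen.cases_head h with e | ⟨w, hw, -⟩
    · exact absurd e.symm hv
    · exact ⟨w, hw⟩
  obtain ⟨K₀, hK₀, hwK⟩ := List.mem_flatten.1 (hp.symm.subset hw)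
  unfold final
  cases e : (circuits A).find? fun K => decide ([] ∈ verts K) with
  | none =>
    have := List.find?_eq_none.1 e K₀ hK₀
    exact absurd (decide_eq_true (fst_mem_verts hwK)) this
  | some K =>
    have hK : K ∈ circuits A := List.mem_of_find?_eq_some e
    have h0 : [] ∈ verts K := by simpa using List.find?_some e
    have hcl := hF.cl K hK
    have hvK : v ∈ verts K := by
      clear hv
      induction h with
      | refl => exact h0
      | tail _ hx ih => exact hcl.snd_mem (hF.mem_of_fst hK (hp.symm.subset hx) ih)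
    simp only [Option.elim_some]
    set i := (verts K).idxOf [] with hi
    have hiv : i < (verts K).length := List.idxOf_lt_length_iff.2 h0
    have hiK : i < K.length := by simpa [verts] using hiv
    have hki : (K[i]).1 = [] := by
      have h1 : (verts K)[i] = [] := List.getElem_idxOf hiv
      have h2 : (verts K)[i] = (K[i]).1 := by simp only [verts, List.getElem_map]
      exact h2.symm.trans h1
    have hw' : Wk (src K) (K.take i ++ K.drop i) (src K) := by
      rw [List.take_append_drop]; exact hcl.wk
    obtain ⟨u, -, hu⟩ := eu_wk_rotate hw'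
    have hu0 : u = [] := by
      rw [List.drop_eq_getElem_cons hiK, List.cons_append] at hu
      exact hu.1.symm.trans hki
    rw [hu0, ← List.rotate_eq_drop_append_take hiK.le] at hu
    obtain ⟨a, ha, rfl⟩ := mem_verts.1 hvK
    have := hu.fst_infix (fun b hb => hcl.arc b (List.mem_rotate.1 hb)) (List.mem_rotate.2 ha)
    simpa using this

end Crest.Agent.R287
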