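/-
R287/Phase1: the main loop.  (helper58)
-/
import Crest.Agent.R287.Euler
import Crest.Agent.R287.Circ
import Crest.Agent.R287.Bump

set_option autoImplicit false

namespace Crest.Agent.R287

open List Function

/-- `M` is below the occurrence multiset of every superstring. -/
def Inv (S M : List Str) : Prop := ∀ T : Str, (∀ s ∈ S, s <:+: T) → M <+~ infs T

variable {S M : List Str}

theorem infix_flatten (S : List Str) : ∀ s ∈ S, s <:+: S.flatten :=
  fun _ hs => List.infix_of_mem_flatten hs

theorem Inv.nil_not_mem (h : Inv S M) : [] ∉ M := fun hm =>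
  (mem_infs.1 ((h _ (infix_flatten S)).subset hm)).1 rfl

theorem count_lt_of_mem_diff {A B : List Str} {w : Str} (h : w ∈ A.diff B) :
    B.count w < A.count w := by
  have := List.count_pos_iff.2 h
  rw [List.count_diff] at this; omega

theorem subperm_of_diff_nil {A B : List Str} (h : A.diff B = []) : A <+~ B := by
  rw [List.subperm_ext_iff]
  intro x _
  have : (A.diff B).count x = 0 := by simp [h]
  rw [List.count_diff] at this; omega

theorem count_tl_le (T w : Str) : (tl (infs T)).count w ≤ (infs T).count w := by
  rw [(infs_perm_tl T).count_eq, List.count_append]; omega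

theorem count_dl_le (T w : Str) : (dl (infs T)).count w ≤ (infs T).count w := by
  rw [(infs_perm_dl T).count_eq, List.count_append]; omega

/-- The first violation has a spare occurrence in every superstring. -/
theorem Inv.count_lt (h : Inv S M) {w : Str} (hw : (viol S M).head? = some w) {T : Str}
    (hT : ∀ s ∈ S, s <:+: T) : M.count w < (infs T).count w := by
  have hM := h T hT
  unfold viol at hw
  set A := (S.filter fun s => decide (s ≠ [] ∧ s ∉ M)) ++ (tl M).diff M ++ (dl M).diff M with hA
  by_cases hA0 : A = []
  · simp only [hA, List.append_eq_nil_iff] at hA0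
    have hc : Circ M := ⟨h.nil_not_mem, subperm_of_diff_nil hA0.1.2, subperm_of_diff_nil hA0.2⟩
    have hF := circuits_fam hc.balanced (arcs_isArc hc.nil)
    have hX := hc.exc hM (circuits_flatten_perm _)
    refine mem_bumps_exc hF hX ?_
    rw [hA, hA0.1.1, hA0.1.2, hA0.2] at hw
    exact List.mem_of_mem_head? hw
  · have hwA : w ∈ A := by
      obtain ⟨b, l, e⟩ := List.exists_cons_of_ne_nil hA0
      rw [e] at hw ⊢
      simp at hw; simp [hw]
    simp only [hA, List.mem_append, List.mem_filter, decide_eq_true_eq] at hwA
    rcases hwA with (⟨h1, h2, h3⟩ | h1) | h1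
    · rw [List.count_eq_zero_of_not_mem h3]
      exact List.count_pos_iff.2 (mem_infs.2 ⟨h2, hT w h1⟩)
    · exact (count_lt_of_mem_diff h1).trans_le
        (((tl_subperm hM).count_le w).trans (count_tl_le T w))
    · exact (count_lt_of_mem_diff h1).trans_le
        (((dl_subperm hM).count_le w).trans (count_dl_le T w))

theorem Inv.step (h : Inv S M) : Inv S (step S M) := by
  unfold R287.step
  cases hw : (viol S M).head? with
  | none => exact h
  | some w =>
    intro T hT
    have h1 := h.count_lt hw hT
    simp only [Option.elim]
    rw [List.subperm_ext_iff]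
    intro x _
    have h2 := (h T hT).count_le x
    rw [List.count_cons]
    split_ifs with e
    · have : w = x := by simpa using e
      subst this; omega
    · omega

theorem inv_iterate (S : List Str) (n : ℕ) : Inv S ((step S)^[n] []) := by
  induction n with
  | zero => exact fun T _ => List.nil_subperm
  | succ n ih => rw [iterate_succ_apply']; exact ih.step

theorem viol_or_length (S : List Str) (n : ℕ) :
    viol S ((step S)^[n] []) = [] ∨ n ≤ ((step S)^[n] []).length := by
  induction n with
  | zero => simp
  | succ n ih =>
    rw [iterate_succ_apply']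
    set M := (step S)^[n] []
    by_cases hv : viol S M = []
    · left
      have : step S M = M := by simp [step, hv]
      rw [this, hv]
    · right
      obtain ⟨b, l, e⟩ := List.exists_cons_of_ne_nil hv
      have : step S M = b :: M := by simp [step, e]
      rw [this, List.length_cons]
      exact Nat.succ_le_succ (ih.resolve_left hv)

theorem viol_mainM (S : List Str) : viol S (mainM S) = [] := by
  refine (viol_or_length S _).resolve_right fun h => ?_
  have := (inv_iterate S ((infs S.flatten).length + 1) _ (infix_flatten S)).length_le
  omega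

theorem mainM_spec (S : List Str) :
    Inv S (mainM S) ∧ Circ (mainM S) ∧ (∀ s ∈ S, s ≠ [] → s ∈ mainM S) ∧
      bumps (circuits (arcs (mainM S))) = [] := by
  have hI : Inv S (mainM S) := inv_iterate S _
  have hv := viol_mainM S
  simp only [viol, List.append_eq_nil_iff] at hv
  obtain ⟨⟨⟨h1, h2⟩, h3⟩, h4⟩ := hv
  refine ⟨hI, ⟨hI.nil_not_mem, subperm_of_diff_nil h2, subperm_of_diff_nil h3⟩, ?_, h4⟩
  intro s hs hne
  by_contra hm
  have := List.filter_eq_nil_iff.1 h1 s hs
  simp [hne, hm] at this

end Crest.Agent.R287
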