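/-
R287/Main: correctness of `scs`.  (helper58)
-/
import Crest.Agent.R287.Phase1
import Crest.Agent.R287.Connect

set_option autoImplicit false

namespace Crest.Agent.R287

open List

theorem scs_spec (S : List Str) :
    (∀ s ∈ S, s <:+: scs S) ∧
      ∀ T : Str, (∀ s ∈ S, s <:+: T) → (scs S).length ≤ 2 * T.length := by
  obtain ⟨hI, hc, hS, hb⟩ := mainM_spec S
  have hF := circuits_fam hc.balanced (arcs_isArc hc.nil)
  have hp := circuits_flatten_perm (arcs (mainM S))
  obtain ⟨h1, h2, h3, h4⟩ := extra_spec hF hb
  refine ⟨fun s hs => ?_, fun T hT => ?_⟩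
  · by_cases hne : s = []
    · rw [hne]; exact List.nil_infix
    obtain ⟨a, ha, hsa⟩ := hc.suffix_head (hS s hs hne)
    refine hsa.isInfix.trans (final_infix (hF.balanced.append h1) ?_ (h4 a (hp.symm.subset ha)))
    intro b hb
    rcases List.mem_append.1 hb with hb | hb
    · exact hF.arc hb
    · exact h2 b hb
  · have := final_length
      ((circuits (arcs (mainM S))).flatten ++ extra (circuits (arcs (mainM S))))
    have h5 := hc.cost_le (hI T hT)
    rw [cost_append] at this
    rw [cost_perm hp] at this h3
    unfold scs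
    omega

end Crest.Agent.R287
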