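/-
R287/PT1: polynomial time of the circuit decomposition and of the geometric tests.  (helper58)
-/
import Crest.Agent.R287.Euler
import Crest.Agent.Lib.PolyTime.Codes
import Crest.Agent.Lib.PolyTime.More

set_option autoImplicit false

namespace Crest.Agent.R287

open List Crest.Agent.Lib.PolyTime

variable {α : Type} [Enc α]

@[fun_prop] theorem pt_src {K : α → Walk} (h : PT K) : PT fun a => src (K a) := by
  unfold src; fun_prop
@[fun_prop] theorem pt_tgt {K : α → Walk} (h : PT K) : PT fun a => tgt (K a) := by
  unfold tgt; fun_prop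
@[fun_prop] theorem pt_isDn {b : α → Arc} (h : PT b) : PT fun a => IsDn (b a) := by
  unfold IsDn; fun_prop
@[fun_prop] theorem pt_up {b : α → Arc} (h : PT b) : PT fun a => up (b a) := by
  unfold up; fun_prop
@[fun_prop] theorem pt_cost {K : α → Walk} (h : PT K) : PT fun a => cost (K a) := by
  unfold cost; fun_prop
@[fun_prop] theorem pt_per {K : α → Walk} (h : PT K) : PT fun a => per (K a) := by
  unfold per; fun_prop
@[fun_prop] theorem pb_per {K : α → Walk} (h : PT K) : PB fun a => per (K a) :=
  (PB.length h).mono fun _ => cost_le_length _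
@[fun_prop] theorem pt_letters {K : α → Walk} (h : PT K) : PT fun a => letters (K a) := by
  unfold letters; fun_prop
@[fun_prop] theorem pt_verts {K : α → Walk} (h : PT K) : PT fun a => verts (K a) := by
  unfold verts; fun_prop
@[fun_prop] theorem pt_rots {K : α → Walk} (h : PT K) : PT fun a => rots (K a) := by
  unfold rots; fun_prop
@[fun_prop] theorem pt_merges {L : α → List Walk} (h : PT L) : PT fun a => merges (L a) := by
  unfold merges; fun_prop
@[fun_prop] theorem pt_mergeStep {L : α → List Walk} (h : PT L) :
    PT fun a => mergeStep (L a) := by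
  unfold mergeStep; fun_prop

theorem esize_mergeStep (L : List Walk) : esize (mergeStep L) ≤ esize L := by
  unfold mergeStep
  cases e : merges L with
  | nil => simp
  | cons N l =>
    obtain ⟨P, Q, P', Q', rest, h1, h2, h3, h4⟩ :=
      mem_merges_perm (show N ∈ merges L by simp [e])
    have := esize_append P' Q'
    rw [List.headD_cons, h4, esize_perm h1, esize_cons, esize_cons, esize_cons, ← esize_perm h2,
      ← esize_perm h3]
    omega

@[fun_prop] theorem pt_circuits {A : α → List Arc} (h : PT A) : PT fun a => circuits (A a) :=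
  PT.iterate_grow (f := fun _ => mergeStep) (fun _ => 0) (by fun_prop) (by fun_prop) (by fun_prop)
    (by fun_prop) (by fun_prop) fun _ c => esize_mergeStep c

@[fun_prop] theorem pt_final {A : α → List Arc} (h : PT A) : PT fun a => final (A a) := by
  unfold final; fun_prop

@[fun_prop] theorem pt_wd {K : α → Walk} {i : α → ℤ} (h : PT K) (hi : PT i) :
    PT fun a => wd (K a) (i a) := by
  unfold wd; fun_prop

@[fun_prop] theorem pt_sg {K : α → Walk} {x : α → ℤ} {n : α → ℕ} (h : PT K) (hx : PT x)
    (hn : PT n) (hn' : PB n) : PT fun a => sg (wd (K a)) (x a) (n a) := by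
  unfold sg; fun_prop

@[fun_prop] theorem pt_low {K : α → Walk} (h : PT K) : PT fun a => low (K a) := by
  unfold low; fun_prop
@[fun_prop] theorem pt_hgt {K : α → Walk} (h : PT K) : PT fun a => hgt (K a) := by
  unfold hgt; fun_prop
@[fun_prop] theorem pb_hgt {K : α → Walk} (h : PT K) : PB fun a => hgt (K a) := by
  unfold hgt; fun_prop
@[fun_prop] theorem pt_high {K : α → Walk} (h : PT K) : PT fun a => High (K a) := by
  unfold High; fun_prop
@[fun_prop] theorem pt_env {K : α → Walk} {x : α → ℤ} (h : PT K) (hx : PT x) :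
    PT fun a => env (K a) (x a) := by
  unfold env; fun_prop
@[fun_prop] theorem pt_G {K : α → Walk} {x : α → ℤ} (h : PT K) (hx : PT x) :
    PT fun a => G (K a) (x a) := by
  unfold G; fun_prop
@[fun_prop] theorem pt_xs {K : α → Walk} {t : α → ℕ} (h : PT K) (ht : PT t) :
    PT fun a => xs (K a) (t a) := by
  unfold xs; fun_prop
@[fun_prop] theorem pt_vx {K : α → Walk} {t : α → ℕ} (h : PT K) (ht : PT t) :
    PT fun a => vx (K a) (t a) := by
  unfold vx; fun_prop
@[fun_prop] theorem pt_col {K : α → Walk} {t : α → ℕ} (h : PT K) (ht : PT t) :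
    PT fun a => col (K a) (t a) := by
  unfold col; fun_prop
@[fun_prop] theorem pt_entry {K : α → Walk} {x : α → ℤ} {b : α → Arc} (h : PT K) (hx : PT x)
    (hb : PT b) : PT fun a => Entry (K a) (x a) (b a) := by
  unfold Entry; fun_prop
@[fun_prop] theorem pt_clean {F : α → List Walk} {K : α → Walk} (hF : PT F) (h : PT K) :
    PT fun a => Clean (F a) (K a) := by
  unfold Clean; fun_prop
@[fun_prop] theorem pt_rect {K : α → Walk} {x : α → ℤ} {i : α → ℕ} {v : α → Str} (h : PT K)
    (hx : PT x) (hi : PT i) (hv : PT v) : PT fun a => Rect (K a) (x a) (i a) (v a) := by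
  unfold Rect; fun_prop
@[fun_prop] theorem pt_bump {F : α → List Walk} {K : α → Walk} {x : α → ℤ} (hF : PT F) (h : PT K)
    (hx : PT x) : PT fun a => Bump (F a) (K a) (x a) := by
  unfold Bump; fun_prop
@[fun_prop] theorem pt_bumps {F : α → List Walk} (hF : PT F) : PT fun a => bumps (F a) := by
  unfold bumps; fun_prop

end Crest.Agent.R287
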