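/-
R287/PT2: `scs` runs in polynomial time.  (helper58)
-/
import Crest.Agent.R287.PT1
import Crest.Agent.R287.Phase1

set_option autoImplicit false

namespace Crest.Agent.R287

open List Function Crest.Agent.Lib.PolyTime

variable {α : Type} [Enc α]

@[fun_prop] theorem pt_tl {M : α → List Str} (h : PT M) : PT fun a => tl (M a) := by
  unfold tl; fun_prop
@[fun_prop] theorem pt_dl {M : α → List Str} (h : PT M) : PT fun a => dl (M a) := by
  unfold dl; fun_prop
@[fun_prop] theorem pt_arcs {M : α → List Str} (h : PT M) : PT fun a => arcs (M a) := by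
  unfold arcs; fun_prop
@[fun_prop] theorem pt_pre {T : α → Str} (h : PT T) : PT fun a => pre (T a) := by
  unfold pre; fun_prop
@[fun_prop] theorem pt_suf {T : α → Str} (h : PT T) : PT fun a => suf (T a) := by
  unfold suf; fun_prop
@[fun_prop] theorem pt_infs {T : α → Str} (h : PT T) : PT fun a => infs (T a) := by
  unfold infs; fun_prop
@[fun_prop] theorem pt_viol {S M : α → List Str} (hS : PT S) (h : PT M) :
    PT fun a => viol (S a) (M a) := by
  unfold viol; fun_prop
@[fun_prop] theorem pt_step {S M : α → List Str} (hS : PT S) (h : PT M) :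
    PT fun a => step (S a) (M a) := by
  unfold step; fun_prop

theorem esize_subperm {β : Type} [Enc β] {l l' : List β} (h : l <+~ l') : esize l ≤ esize l' := by
  obtain ⟨m, h1, h2⟩ := h
  exact esize_perm h1 ▸ esize_sublist h2

@[fun_prop] theorem pt_mainM {S : α → List Str} (hS : PT S) : PT fun a => mainM (S a) :=
  PT.iterate (f := fun a => step (S a)) (fun a => esize (infs (S a).flatten)) (by fun_prop)
    (by fun_prop) (by fun_prop) (by fun_prop) (by fun_prop)
    fun a i _ => esize_subperm (inv_iterate (S a) i _ (infix_flatten _))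

@[fun_prop] theorem pt_downs {s : α → Str} {k : α → ℕ} (hs : PT s) (hk : PT k) :
    PT fun a => downs (s a) (k a) := by
  unfold downs; fun_prop
@[fun_prop] theorem pt_ups {s : α → Str} {k : α → ℕ} (hs : PT s) (hk : PT k) :
    PT fun a => ups (s a) (k a) := by
  unfold ups; fun_prop
@[fun_prop] theorem pt_hook {s s' : α → Str} {k : α → ℕ} (hs : PT s) (hk : PT k) (hs' : PT s') :
    PT fun a => hook (s a) (k a) (s' a) := by
  unfold hook; fun_prop
@[fun_prop] theorem pt_tour {P : α → ℕ × Str} {l : α → List (ℕ × Str)} (hP : PT P) (hl : PT l) :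
    PT fun a => tour (P a) (l a) := by
  unfold tour; fun_prop
@[fun_prop] theorem pt_tri {s : α → Str} (hs : PT s) : PT fun a => tri (s a) := by
  unfold tri; fun_prop
@[fun_prop] theorem pt_loop {K : α → Walk} {x : α → ℤ} {i : α → ℕ} {v : α → Str} (h : PT K)
    (hx : PT x) (hi : PT i) (hv : PT v) : PT fun a => loop (K a) (x a) (i a) (v a) := by
  unfold loop; fun_prop
@[fun_prop] theorem pt_farE {Z K : α → Walk} {t : α → ℕ} {x : α → ℤ} (hZ : PT Z) (h : PT K)
    (ht : PT t) (hx : PT x) : PT fun a => FarE (Z a) (K a) (t a) (x a) := by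
  unfold FarE; fun_prop
@[fun_prop] theorem pt_fars {Z K : α → Walk} (hZ : PT Z) (h : PT K) :
    PT fun a => fars (Z a) (K a) := by
  unfold fars; fun_prop
@[fun_prop] theorem pt_leaves {R : α → List Walk} {K : α → Walk} (hR : PT R) (h : PT K) :
    PT fun a => leaves (R a) (K a) := by
  unfold leaves; fun_prop
@[fun_prop] theorem pt_same {Z K : α → Walk} (hZ : PT Z) (h : PT K) :
    PT fun a => Same (Z a) (K a) := by
  unfold Same; fun_prop
@[fun_prop] theorem pt_sel {L : α → List Walk} (h : PT L) : PT fun a => sel (L a) := by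
  unfold sel; fun_prop
@[fun_prop] theorem pt_ch {Z K : α → Walk} (h : PT K) (hZ : PT Z) :
    PT fun a => ch (K a) (Z a) := by
  unfold ch; fun_prop
@[fun_prop] theorem pt_srt {K : α → Walk} {L : α → List Walk} (h : PT K) (hL : PT L) :
    PT fun a => srt (K a) (L a) := by
  unfold srt; fun_prop
@[fun_prop] theorem pt_pt {Z K : α → Walk} (h : PT K) (hZ : PT Z) :
    PT fun a => pt (K a) (Z a) := by
  unfold pt; fun_prop
@[fun_prop] theorem pt_comb {K : α → Walk} {L : α → List Walk} (h : PT K) (hL : PT L) :
    PT fun a => comb (K a) (L a) := by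
  unfold comb; fun_prop
@[fun_prop] theorem pt_candsA {F R : α → List Walk} (hF : PT F) (hR : PT R) :
    PT fun a => candsA (F a) (R a) := by
  unfold candsA; fun_prop
@[fun_prop] theorem pt_candsB {R : α → List Walk} (hR : PT R) : PT fun a => candsB (R a) := by
  unfold candsB; fun_prop
@[fun_prop] theorem pt_act {F R : α → List Walk} (hF : PT F) (hR : PT R) :
    PT fun a => act (F a) (R a) := by
  unfold act; fun_prop
@[fun_prop] theorem pt_cstep {F : α → List Walk} {s : α → List Walk × List Arc} (hF : PT F)
    (hs : PT s) : PT fun a => cstep (F a) (s a) := by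
  unfold cstep; fun_prop

@[fun_prop] theorem pt_extra {F : α → List Walk} (hF : PT F) : PT fun a => extra (F a) := by
  have hg : PB fun p : List Walk × List Walk => esize (act p.1 p.2).2 := by fun_prop
  obtain ⟨B, hB, hb⟩ := hg.exists_bound (s := fun a => esize (F a) + esize (F a) + 1)
    (by fun_prop)
  refine PT.snd (PT.iterate (f := fun a => cstep (F a))
    (fun a => esize (F a) + (1 + (F a).length * B a) + 1) (by fun_prop) (by fun_prop)
    (by fun_prop) (by fun_prop) (by fun_prop) fun a i hi => ?_)
  have key : ∀ i, esize ((cstep (F a))^[i] (F a, [])).1 ≤ esize (F a) ∧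
      esize ((cstep (F a))^[i] (F a, [])).2 ≤ 1 + i * B a := by
    intro i
    induction i with
    | zero => simp
    | succ i ih =>
      rw [iterate_succ_apply']
      set s := (cstep (F a))^[i] (F a, [])
      refine ⟨(esize_sublist List.filter_sublist).trans ih.1, ?_⟩
      have h1 := hb a (F a, s.1) (by rw [esize_pair]; omega)
      have h2 := esize_append_le s.2 (act (F a) s.1).2
      have h3 := ih.2
      simp only [cstep] at h1 ⊢
      rw [Nat.succ_mul]; omega
  have h1 := key i
  have h2 : i * B a ≤ (F a).length * B a := Nat.mul_le_mul_right _ hi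
  rw [esize_prod]; omega

theorem pt_scs : PT scs := by
  unfold scs; fun_prop

end Crest.Agent.R287
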